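import Mathlib
import Crest.Prelude.Def_AsymptoticConvexity

/-! General facts about closed finite-codimensional subspaces and asymptotic uniform convexity. -/

set_option autoImplicit false

namespace Crest.Agent.R125

open Crest.AnalysisR Filter Topology

section general

variable {X : Type*} [NormedAddCommGroup X] [NormedSpace ℝ X]

/-- closed of finite codimension -/
def Cof (S : Submodule ℝ X) : Prop := IsClosed (S : Set X) ∧ FiniteDimensional ℝ (X ⧸ S)

theorem cof_ker {V : Type*} [NormedAddCommGroup V] [NormedSpace ℝ V] [FiniteDimensional ℝ V]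
    (L : X →L[ℝ] V) : Cof (LinearMap.ker (L : X →ₗ[ℝ] V)) := by
  refine ⟨L.isClosed_ker, ?_⟩
  exact (LinearMap.quotKerEquivRange (L : X →ₗ[ℝ] V)).symm.finiteDimensional

theorem cof_top : Cof (⊤ : Submodule ℝ X) := by
  refine ⟨by simp, inferInstance⟩

theorem Cof.inf {S T : Submodule ℝ X} (hS : Cof S) (hT : Cof T) : Cof (S ⊓ T) := by
  refine ⟨by simpa using hS.1.inter hT.1, ?_⟩
  have := hS.2
  have := hT.2
  have h : LinearMap.ker (S.mkQ.prod T.mkQ) = S ⊓ T := by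
    rw [LinearMap.ker_prod]; simp
  rw [← h]
  exact (LinearMap.quotKerEquivRange _).symm.finiteDimensional

/-- A closed finite-codimensional subspace is controlled by a map to a Euclidean space. -/
theorem Cof.exists_map {S : Submodule ℝ X} (hS : Cof S) :
    ∃ (n : ℕ) (L : X →L[ℝ] EuclideanSpace ℝ (Fin n)),
      ∀ η : ℝ, 0 < η → ∃ ρ : ℝ, 0 < ρ ∧ ∀ x : X, ‖L x‖ < ρ → ∃ y ∈ S, ‖x - y‖ < η := by
  have := hS.2
  have : IsClosed (S : Set X) := hS.1
  let n := Module.finrank ℝ (X ⧸ S)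
  let e : (X ⧸ S) ≃L[ℝ] EuclideanSpace ℝ (Fin n) :=
    ContinuousLinearEquiv.ofFinrankEq (by simp [n])
  let q : X →L[ℝ] (X ⧸ S) := ⟨S.mkQ, S.continuous_mkQ⟩
  refine ⟨n, (e : (X ⧸ S) →L[ℝ] _).comp q, fun η hη => ?_⟩
  have hc : ContinuousAt e.symm 0 := e.symm.continuous.continuousAt
  rw [Metric.continuousAt_iff] at hc
  obtain ⟨ρ, hρ, h⟩ := hc (η / 2) (by positivity)
  refine ⟨ρ, hρ, fun x hx => ?_⟩
  have h1 : ‖q x‖ < η / 2 := by
    have := h (x := e (q x)) (by simpa using hx)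
    simpa using this
  obtain ⟨r, hr, hr'⟩ := Submodule.Quotient.norm_mk_lt (q x) (ε := η / 2) (by positivity)
  refine ⟨x - r, ?_, by simp; linarith⟩
  have : Submodule.Quotient.mk (p := S) r = Submodule.Quotient.mk x := hr
  rw [Submodule.Quotient.eq] at this
  simpa using S.neg_mem this

/-- an `ℓ²`-dominated sequence is weakly null -/
theorem tendsto_of_l2dom (u : ℕ → X) (K : ℝ)
    (h : ∀ (A : Finset ℕ) (c : ℕ → ℝ), ‖∑ n ∈ A, c n • u n‖ ≤ K * √(∑ n ∈ A, c n ^ 2))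
    (φ : X →L[ℝ] ℝ) : Tendsto (fun n => φ (u n)) atTop (𝓝 0) := by
  have hb : ∀ A : Finset ℕ, ∑ n ∈ A, φ (u n) ^ 2 ≤ (‖φ‖ * |K|) ^ 2 := by
    intro A
    set s := ∑ n ∈ A, φ (u n) ^ 2 with hs
    have hs0 : 0 ≤ s := Finset.sum_nonneg fun _ _ => sq_nonneg _
    have h1 : s = φ (∑ n ∈ A, φ (u n) • u n) := by
      rw [map_sum]; simp [hs, sq]
    have h2 : s ≤ ‖φ‖ * |K| * √s := by
      calc s ≤ ‖φ (∑ n ∈ A, φ (u n) • u n)‖ := by rw [← h1]; exact le_abs_self _
        _ ≤ ‖φ‖ * ‖∑ n ∈ A, φ (u n) • u n‖ := φ.le_opNorm _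
        _ ≤ ‖φ‖ * (K * √s) := by gcongr; exact h A _
        _ ≤ ‖φ‖ * (|K| * √s) := by gcongr; exact le_abs_self _
        _ = _ := by ring
    have h3 : √s ≤ ‖φ‖ * |K| := by
      by_contra hcon
      push Not at hcon
      have h4 : 0 < √s := lt_of_le_of_lt (by positivity) hcon
      have := Real.mul_self_sqrt hs0
      nlinarith
    calc s = √s ^ 2 := (Real.sq_sqrt hs0).symm
      _ ≤ _ := by gcongr
  have hsum : Summable fun n => φ (u n) ^ 2 :=
    summable_of_sum_le (fun _ => sq_nonneg _) hb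
  have h0 := hsum.tendsto_atTop_zero
  have h1 : Tendsto (fun n => √(φ (u n) ^ 2)) atTop (𝓝 0) := by
    simpa using h0.sqrt
  simp only [Real.sqrt_sq_eq_abs] at h1
  exact (tendsto_zero_iff_abs_tendsto_zero _).2 h1

theorem exists_near_of_weaknull (u : ℕ → X)
    (h : ∀ φ : X →L[ℝ] ℝ, Tendsto (fun n => φ (u n)) atTop (𝓝 0))
    {S : Submodule ℝ X} (hS : Cof S) {η : ℝ} (hη : 0 < η) : ∃ n, ∃ y ∈ S, ‖u n - y‖ < η := by
  obtain ⟨n, L, hL⟩ := hS.exists_map
  obtain ⟨ρ, hρ, hL⟩ := hL η hη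
  have h1 : Tendsto (fun m => L (u m)) atTop (𝓝 0) := by
    have h2 : Tendsto (fun m => (EuclideanSpace.equiv (Fin n) ℝ) (L (u m))) atTop (𝓝 0) := by
      rw [tendsto_pi_nhds]
      intro i
      simpa using h ((EuclideanSpace.proj i).comp L)
    have h3 := ((EuclideanSpace.equiv (Fin n) ℝ).symm.continuous.tendsto 0).comp h2
    simpa [Function.comp_def] using h3
  have h4 := (h1.norm.eventually (gt_mem_nhds (by simpa using hρ : ‖(0 : EuclideanSpace ℝ (Fin n))‖ < ρ))).exists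
  obtain ⟨m, hm⟩ := h4
  exact ⟨m, hL _ hm⟩

theorem exists_near_of_l2dom (u : ℕ → X) (K : ℝ)
    (h : ∀ (A : Finset ℕ) (c : ℕ → ℝ), ‖∑ n ∈ A, c n • u n‖ ≤ K * √(∑ n ∈ A, c n ^ 2))
    {S : Submodule ℝ X} (hS : Cof S) {η : ℝ} (hη : 0 < η) : ∃ n, ∃ y ∈ S, ‖u n - y‖ < η :=
  exists_near_of_weaknull u (tendsto_of_l2dom u K h) hS hη

/-- in a bounded sequence two different terms are close modulo `S` -/
theorem exists_pair_near (u : ℕ → X) (R : ℝ) (h : ∀ n, ‖u n‖ ≤ R)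
    {S : Submodule ℝ X} (hS : Cof S) {η : ℝ} (hη : 0 < η) :
    ∃ i j, i ≠ j ∧ ∃ y ∈ S, ‖u i - u j - y‖ < η := by
  obtain ⟨n, L, hL⟩ := hS.exists_map
  obtain ⟨ρ, hρ, hL⟩ := hL η hη
  have hb : ∀ m, L (u m) ∈ Metric.closedBall (0 : EuclideanSpace ℝ (Fin n)) (‖L‖ * R) := by
    intro m
    simp only [Metric.mem_closedBall, dist_zero_right]
    exact (L.le_opNorm _).trans (by gcongr; exact h m)
  obtain ⟨a, -, φ, hφ, hlim⟩ := (isCompact_closedBall _ _).tendsto_subseq hb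
  have hc := hlim.cauchySeq
  rw [Metric.cauchySeq_iff] at hc
  obtain ⟨N, hN⟩ := hc ρ hρ
  refine ⟨φ N, φ (N + 1), (hφ (Nat.lt_succ_self N)).ne, hL _ ?_⟩
  have := hN N le_rfl (N + 1) (Nat.le_succ N)
  rwa [dist_eq_norm, Function.comp_apply, Function.comp_apply, ← map_sub] at this

/-- bounded separated trees, weakly null in the sense of being close to every finite-codimensional
subspace, of all finite heights -/
def HasTrees (X : Type*) [NormedAddCommGroup X] [NormedSpace ℝ X] : Prop :=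
  ∃ C δ : ℝ, 0 < δ ∧ ∀ k : ℕ, ∃ A : ℕ → Set X, (A 0).Nonempty ∧ (∀ j ≤ k, ∀ x ∈ A j, ‖x‖ ≤ C) ∧
    ∀ j < k, ∀ x ∈ A j, ∀ S : Submodule ℝ X, Cof S → ∀ η : ℝ, 0 < η →
      ∃ x' ∈ A (j + 1), δ ≤ ‖x' - x‖ ∧ ∃ y ∈ S, ‖x' - x - y‖ < η

theorem HasTrees.not_finiteDimensional (h : HasTrees X) : ¬ FiniteDimensional ℝ X := by
  intro hfd
  obtain ⟨C, δ, hδ, h⟩ := h
  obtain ⟨A, ⟨x, hx⟩, -, h⟩ := h 1
  obtain ⟨x', -, h1, y, hy, h2⟩ := h 0 one_pos x hx ⊥ ⟨by simp, inferInstance⟩ δ hδ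
  simp only [Submodule.mem_bot] at hy
  subst hy
  simp only [sub_zero] at h2
  linarith

theorem HasTrees.not_auc (h : HasTrees X) (N : X → ℝ)
    (hadd : ∀ x y, N (x + y) ≤ N x + N y) (hsmul : ∀ (a : ℝ) (x : X), N (a • x) = |a| * N x)
    (a b : ℝ) (ha : 0 < a) (hab : ∀ x, a * ‖x‖ ≤ N x ∧ N x ≤ b * ‖x‖)
    (hauc : ∀ t : ℝ, 0 < t → ∃ c : ℝ, 0 < c ∧ ∀ x : X, N x = 1 → ∃ S : Submodule ℝ X, Cof S ∧
      ∀ y ∈ S, N y = 1 → c ≤ N (x + t • y) - 1) : False := by
  obtain ⟨C, δ, hδ, h⟩ := h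
  have hN0 : ∀ x, 0 ≤ N x := fun x => le_trans (by positivity) (hab x).1
  set M : ℝ := |b| * |C| + 1 with hM
  have hMpos : 0 < M := by positivity
  set m : ℝ := a * δ / 2 with hm
  have hmpos : 0 < m := by positivity
  obtain ⟨c, hc, hauc⟩ := hauc (m / M) (by positivity)
  set γ : ℝ := min (c * M) m with hγ
  have hγpos : 0 < γ := lt_min (by positivity) hmpos
  -- uniform gain
  have gain : ∀ x : X, N x ≤ M → ∃ S : Submodule ℝ X, Cof S ∧
      ∀ y ∈ S, m ≤ N y → N x + γ ≤ N (x + y) := by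
    intro x hx
    rcases (hN0 x).eq_or_lt with h0 | hpos
    · refine ⟨⊤, cof_top, fun y _ hy => ?_⟩
      have hx0 : x = 0 := by
        have := (hab x).1
        rw [← h0] at this
        have : ‖x‖ ≤ 0 := by
          by_contra hcon
          push Not at hcon
          nlinarith [mul_pos ha hcon]
        exact norm_le_zero_iff.1 this
      rw [← h0, hx0, zero_add, zero_add]
      exact (min_le_right _ _).trans hy
    · set r := N x with hr
      obtain ⟨S, hS, hS'⟩ := hauc (r⁻¹ • x) (by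
        rw [hsmul, abs_of_pos (inv_pos.2 hpos)]; exact inv_mul_cancel₀ hpos.ne')
      refine ⟨S, hS, fun y hyS hy => ?_⟩
      have hNy : 0 < N y := hmpos.trans_le hy
      set s := N y with hs
      have h1 := hS' (s⁻¹ • y) (S.smul_mem _ hyS) (by
        rw [hsmul, abs_of_pos (inv_pos.2 hNy)]; exact inv_mul_cancel₀ hNy.ne')
      -- θ = r t / s ∈ (0,1]
      set θ : ℝ := r * (m / M) / s with hθ
      have hθpos : 0 < θ := by positivity
      have hθ1 : θ ≤ 1 := by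
        rw [hθ, div_le_one hNy]
        calc r * (m / M) ≤ M * (m / M) := by gcongr
          _ = m := by field_simp
          _ ≤ s := hy
      have h2 : r • (r⁻¹ • x + (m / M) • s⁻¹ • y) = (1 - θ) • x + θ • (x + y) := by
        rw [smul_add, smul_smul, mul_inv_cancel₀ hpos.ne', one_smul, smul_smul, smul_smul,
          smul_add, ← add_assoc, ← add_smul]
        congr 1
        simp
      have h3 : r * (1 + c) ≤ (1 - θ) * r + θ * N (x + y) := by
        calc r * (1 + c) ≤ r * N (r⁻¹ • x + (m / M) • s⁻¹ • y) := by gcongr; linarith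
          _ = N (r • (r⁻¹ • x + (m / M) • s⁻¹ • y)) := by rw [hsmul, abs_of_pos hpos]
          _ ≤ N ((1 - θ) • x) + N (θ • (x + y)) := by rw [h2]; exact hadd _ _
          _ = _ := by rw [hsmul, hsmul, abs_of_pos hθpos, abs_of_nonneg (by linarith)]
      have h4 : θ * (c * M) ≤ r * c := by
        have : θ * (c * M) = r * c * (m / s) := by rw [hθ]; field_simp
        rw [this]
        have : m / s ≤ 1 := by rwa [div_le_one hNy]
        calc r * c * (m / s) ≤ r * c * 1 := by gcongr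
          _ = _ := mul_one _
      have h5 : θ * (r + c * M) ≤ θ * N (x + y) := by nlinarith
      have h6 : r + c * M ≤ N (x + y) := le_of_mul_le_mul_left h5 hθpos
      linarith [min_le_left (c * M) m]
  obtain ⟨k, hk⟩ := exists_nat_gt (M / (γ / 2))
  obtain ⟨A, ⟨x₀, hx₀⟩, hAC, hA⟩ := h k
  have hbound : ∀ j ≤ k, ∀ x ∈ A j, N x ≤ M := by
    intro j hj x hx
    calc N x ≤ b * ‖x‖ := (hab x).2
      _ ≤ |b| * ‖x‖ := by gcongr; exact le_abs_self _
      _ ≤ |b| * |C| := by gcongr; exact (hAC j hj x hx).trans (le_abs_self _)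
      _ ≤ M := by linarith
  have hNle : ∀ x, N x ≤ (|b| + 1) * ‖x‖ := fun x =>
    (hab x).2.trans (by gcongr; linarith [le_abs_self b])
  have key : ∀ j ≤ k, ∃ x ∈ A j, j * (γ / 2) ≤ N x := by
    intro j
    induction j with
    | zero => intro _; exact ⟨x₀, hx₀, by simpa using hN0 x₀⟩
    | succ j ih =>
      intro hj
      obtain ⟨x, hx, hx'⟩ := ih (by omega)
      obtain ⟨S, hS, hS'⟩ := gain x (hbound j (by omega) x hx)
      obtain ⟨x', hx'A, h1, y, hy, h2⟩ := hA j (by omega) x hx S hS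
        (min (δ / 2) (γ / 2 / (|b| + 1))) (lt_min (by positivity) (by positivity))
      refine ⟨x', hx'A, ?_⟩
      have h3 : δ / 2 ≤ ‖y‖ := by
        have : ‖x' - x‖ ≤ ‖x' - x - y‖ + ‖y‖ := by
          simpa using norm_add_le (x' - x - y) y
        linarith [min_le_left (δ / 2) (γ / 2 / (|b| + 1))]
      have h4 : m ≤ N y := by
        refine le_trans ?_ (hab y).1
        rw [hm, mul_div_assoc]; gcongr
      have h5 := hS' y hy h4
      have h6 : N (x + y) ≤ N x' + N (-(x' - x - y)) := by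
        have := hadd x' (-(x' - x - y))
        rwa [show x' + -(x' - x - y) = x + y by abel] at this
      have h7 : N (-(x' - x - y)) ≤ γ / 2 := by
        refine (hNle _).trans ?_
        rw [norm_neg]
        have h8 : ‖x' - x - y‖ ≤ γ / 2 / (|b| + 1) := h2.le.trans (min_le_right _ _)
        calc (|b| + 1) * ‖x' - x - y‖ ≤ (|b| + 1) * (γ / 2 / (|b| + 1)) := by gcongr
          _ = γ / 2 := by field_simp
      push_cast
      linarith
  obtain ⟨x, hx, hx'⟩ := key k le_rfl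
  have := hbound k le_rfl x hx
  rw [div_lt_iff₀ (by positivity)] at hk
  linarith

end general

section bundled

variable {X : Type} [NormedAddCommGroup X] [NormedSpace ℝ X]

theorem isCof_iff (c : CompleteSpace X) (F : Set X) :
    (RealBanach.mk X inferInstance inferInstance c).IsCof F ↔
      ∃ S : Submodule ℝ X, (S : Set X) = F ∧ Cof S := by
  constructor
  · rintro ⟨S, rfl, h1, h2⟩
    exact ⟨S, rfl, h1, h2⟩
  · rintro ⟨S, rfl, h1, h2⟩
    exact ⟨S, rfl, h1, h2⟩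

theorem isCof_of_cof (c : CompleteSpace X) {S : Submodule ℝ X} (hS : Cof S) :
    (RealBanach.mk X inferInstance inferInstance c).IsCof (S : Set X) :=
  (isCof_iff c _).2 ⟨S, rfl, hS⟩

theorem HasTrees.not_isAUC (h : HasTrees X) (c : CompleteSpace X) (N : X → ℝ)
    (hN : (RealBanach.mk X inferInstance inferInstance c).IsEquivNorm N) :
    ¬ (RealBanach.mk X inferInstance inferInstance c).IsAUC N := by
  intro hauc
  obtain ⟨h1, h2, a, b, ha, hab⟩ := hN
  refine h.not_auc N h1 h2 a b ha hab fun t ht => ?_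
  obtain ⟨c', hc', h3⟩ := hauc t ht
  refine ⟨c', hc', fun x hx => ?_⟩
  obtain ⟨F, hF, h4⟩ := h3 x hx
  obtain ⟨S, rfl, hS⟩ := (isCof_iff c F).1 hF
  exact ⟨S, hS, h4⟩

theorem midGE_of (c : CompleteSpace X) (t b : ℝ)
    (h : ∀ x : X, ‖x‖ = 1 → ∀ η : ℝ, 0 < η → ∃ S : Submodule ℝ X, Cof S ∧
      ∀ y ∈ S, ‖y‖ = 1 → b - η ≤ (‖x + t • y‖ + ‖x - t • y‖) / 2 - 1) :
    (RealBanach.mk X inferInstance inferInstance c).MidpointModulusGE
      (RealBanach.mk X inferInstance inferInstance c).norm t b := by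
  intro x hx η hη
  obtain ⟨S, hS, h1⟩ := h x hx η hη
  exact ⟨S, isCof_of_cof c hS, h1⟩

theorem maxGE_of (c : CompleteSpace X) (t b : ℝ)
    (h : ∀ x : X, ‖x‖ = 1 → ∀ η : ℝ, 0 < η → ∃ S : Submodule ℝ X, Cof S ∧
      ∀ y ∈ S, ‖y‖ = 1 → b - η ≤ max ‖x + t • y‖ ‖x - t • y‖ - 1) :
    (RealBanach.mk X inferInstance inferInstance c).MaxMidpointModulusGE
      (RealBanach.mk X inferInstance inferInstance c).norm t b := by
  intro x hx η hη
  obtain ⟨S, hS, h1⟩ := h x hx η hη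
  exact ⟨S, isCof_of_cof c hS, h1⟩

theorem oneGE_of (c : CompleteSpace X) (t b : ℝ)
    (h : ∀ x : X, ‖x‖ = 1 → ∀ η : ℝ, 0 < η → ∃ S : Submodule ℝ X, Cof S ∧
      ∀ y ∈ S, ‖y‖ = 1 → b - η ≤ ‖x + t • y‖ - 1) :
    (RealBanach.mk X inferInstance inferInstance c).OneSidedModulusGE
      (RealBanach.mk X inferInstance inferInstance c).norm t b := by
  intro x hx η hη
  obtain ⟨S, hS, h1⟩ := h x hx η hη
  exact ⟨S, isCof_of_cof c hS, h1⟩

theorem midLE_of (c : CompleteSpace X) (t b : ℝ)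
    (h : ∀ x : X, ‖x‖ = 1 → ∀ S : Submodule ℝ X, Cof S → ∀ η : ℝ, 0 < η →
      ∃ y ∈ S, ‖y‖ = 1 ∧ (‖x + t • y‖ + ‖x - t • y‖) / 2 - 1 ≤ b + η) :
    (RealBanach.mk X inferInstance inferInstance c).MidpointModulusLE
      (RealBanach.mk X inferInstance inferInstance c).norm t b := by
  intro x hx F hF η hη
  obtain ⟨S, rfl, hS⟩ := (isCof_iff c F).1 hF
  exact h x hx S hS η hη

theorem oneLE_of (c : CompleteSpace X) (t b : ℝ)
    (h : ∀ x : X, ‖x‖ = 1 → ∀ S : Submodule ℝ X, Cof S → ∀ η : ℝ, 0 < η →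
      ∃ y ∈ S, ‖y‖ = 1 ∧ ‖x + t • y‖ - 1 ≤ b + η) :
    (RealBanach.mk X inferInstance inferInstance c).OneSidedModulusLE
      (RealBanach.mk X inferInstance inferInstance c).norm t b := by
  intro x hx F hF η hη
  obtain ⟨S, rfl, hS⟩ := (isCof_iff c F).1 hF
  exact h x hx S hS η hη

end bundled

end Crest.Agent.R125
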