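import Mathlib
import Crest.Prelude.Def_DaugavetL1
import Crest.Agent.R125.Basic

/-! Consequences of the Daugavet property. -/

set_option autoImplicit false

namespace Crest.Agent.R125

open Crest.AnalysisR Filter Topology Crest.AnalysisR.L1Subspace

variable {X : Type*} [NormedAddCommGroup X] [NormedSpace ℝ X]

theorem daugavet_slice_unit (hD : HasDaugavetProperty X) (ψ : X →L[ℝ] ℝ) (hψ : ‖ψ‖ = 1)
    (w : X) {ε : ℝ} (hε : 0 < ε) :
    ∃ z : X, ‖z‖ ≤ 1 ∧ ‖w‖ + 1 - 2 * ε ≤ ‖w + z‖ ∧ (1 - ψ z) * ‖w‖ ≤ ε := by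
  have h := hD ψ w
  rw [ContinuousLinearMap.norm_smulRight_apply, hψ, one_mul] at h
  obtain ⟨z, hz1, hz2⟩ := (ContinuousLinearMap.id ℝ X + ψ.smulRight w).exists_lt_apply_of_lt_opNorm
    (r := 1 + ‖w‖ - ε) (by rw [h]; linarith)
  simp only [add_apply, ContinuousLinearMap.id_apply,
    ContinuousLinearMap.smulRight_apply] at hz2
  have main : ∀ z : X, ‖z‖ < 1 → 1 + ‖w‖ - ε < ‖z + ψ z • w‖ → 0 ≤ ψ z →
      ‖z‖ ≤ 1 ∧ ‖w‖ + 1 - 2 * ε ≤ ‖w + z‖ ∧ (1 - ψ z) * ‖w‖ ≤ ε := by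
    intro z hz1 hz2 h0
    have h1 : ψ z ≤ 1 := by
      have := ψ.le_opNorm z
      rw [hψ, one_mul] at this
      exact (le_abs_self _).trans (this.trans hz1.le)
    have h2 : ‖z + ψ z • w‖ ≤ ‖z‖ + ψ z * ‖w‖ := by
      simpa [norm_smul, abs_of_nonneg h0] using norm_add_le z (ψ z • w)
    have h3 : (1 - ψ z) * ‖w‖ ≤ ε := by nlinarith
    refine ⟨hz1.le, ?_, h3⟩
    have h4 : ‖z + ψ z • w‖ ≤ ‖w + z‖ + (1 - ψ z) * ‖w‖ := by
      have := norm_sub_le (w + z) ((1 - ψ z) • w)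
      rw [norm_smul, Real.norm_eq_abs, abs_of_nonneg (by linarith)] at this
      rwa [show w + z - (1 - ψ z) • w = z + ψ z • w by rw [sub_smul, one_smul]; abel] at this
    linarith
  rcases le_total 0 (ψ z) with h0 | h0
  · exact ⟨z, main z hz1 hz2 h0⟩
  · refine ⟨-z, main (-z) (by simpa using hz1) ?_ (by simpa using h0)⟩
    rw [map_neg, neg_smul, ← neg_add, norm_neg]; exact hz2

theorem daugavet_slice (hD : HasDaugavetProperty X) (φ : X →L[ℝ] ℝ) (w : X) (hw : w ≠ 0)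
    (x : X) (hx : ‖x‖ ≤ 1) {δ : ℝ} (hδ : 0 < δ) :
    ∃ z : X, ‖z‖ ≤ 1 ∧ ‖w‖ + 1 - δ ≤ ‖w + z‖ ∧ φ x - δ ≤ φ z := by
  have hwpos : 0 < ‖w‖ := norm_pos_iff.2 hw
  by_cases hφ : φ = 0
  · obtain ⟨ψ, hψ, -⟩ := exists_dual_vector ℝ w hwpos.ne'
    obtain ⟨z, h1, h2, -⟩ := daugavet_slice_unit hD ψ hψ w (ε := δ / 2) (by positivity)
    exact ⟨z, h1, by linarith, by simp [hφ, hδ.le]⟩
  · have hφpos : 0 < ‖φ‖ := norm_pos_iff.2 hφ
    obtain ⟨z, h1, h2, h3⟩ := daugavet_slice_unit hD (‖φ‖⁻¹ • φ)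
      (by rw [norm_smul, norm_inv, norm_norm]; exact inv_mul_cancel₀ hφpos.ne') w
      (ε := min (δ / 2) (δ * ‖w‖ / ‖φ‖)) (lt_min (by positivity) (by positivity))
    refine ⟨z, h1, by linarith [min_le_left (δ / 2) (δ * ‖w‖ / ‖φ‖)], ?_⟩
    have h4 : (1 - ‖φ‖⁻¹ * φ z) * ‖w‖ ≤ δ * ‖w‖ / ‖φ‖ := by
      simpa using h3.trans (min_le_right _ _)
    have h5 : 1 - ‖φ‖⁻¹ * φ z ≤ δ / ‖φ‖ := by
      rw [mul_div_right_comm] at h4
      exact le_of_mul_le_mul_right h4 hwpos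
    have h6 : ‖φ‖ - φ z ≤ δ := by
      have := mul_le_mul_of_nonneg_left h5 hφpos.le
      rwa [mul_sub, mul_one, ← mul_assoc, mul_inv_cancel₀ hφpos.ne', one_mul,
        mul_div_cancel₀ _ hφpos.ne'] at this
    have h7 : φ x ≤ ‖φ‖ := by
      calc φ x ≤ ‖φ x‖ := le_abs_self _
        _ ≤ ‖φ‖ * ‖x‖ := φ.le_opNorm x
        _ ≤ ‖φ‖ * 1 := by gcongr
        _ = _ := mul_one _
    linarith

/-- Greedy averaging: almost antipodal points are dense in the ball, seen through a finite-rank map. -/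
theorem daugavet_weak (hD : HasDaugavetProperty X) {n : ℕ}
    (L : X →L[ℝ] EuclideanSpace ℝ (Fin n)) (u : X) (hu : ‖u‖ = 1) (x : X) (hx : ‖x‖ ≤ 1)
    {ε : ℝ} (hε : 0 < ε) :
    ∃ z : X, ‖z‖ ≤ 1 ∧ 2 - ε ≤ ‖u + z‖ ∧ ‖L (z - x)‖ < ε := by
  set δ : ℝ := min ε 1 with hδ
  have hδpos : 0 < δ := lt_min hε one_pos
  have hδ1 : δ ≤ 1 := min_le_right _ _
  set B : ℝ := 4 * ‖L‖ ^ 2 + 2 with hB
  obtain ⟨m, hm⟩ := exists_nat_gt (B / ε ^ 2)
  have hBpos : 0 < B := by positivity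
  have hmpos : (0 : ℝ) < m := lt_trans (by positivity) hm
  have key : ∀ i : ℕ, ∃ s : X, ‖s‖ ≤ i ∧ m + i * (1 - δ) ≤ ‖(m : ℝ) • u + s‖ ∧
      ‖L (s - (i : ℝ) • x)‖ ^ 2 ≤ i * B := by
    intro i
    induction i with
    | zero => exact ⟨0, by simp, by simp [norm_smul, hu], by simp⟩
    | succ i ih =>
      obtain ⟨s, h1, h2, h3⟩ := ih
      set r := L (s - (i : ℝ) • x) with hr
      have hw : (m : ℝ) • u + s ≠ 0 := by
        intro h0
        rw [h0, norm_zero] at h2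
        have : (0 : ℝ) ≤ i * (1 - δ) := by
          have : 0 ≤ 1 - δ := by linarith
          positivity
        linarith
      obtain ⟨z, hz1, hz2, hz3⟩ := daugavet_slice hD (-((innerSL ℝ r).comp L)) _ hw x hx hδpos
      refine ⟨s + z, ?_, ?_, ?_⟩
      · push_cast; linarith [norm_add_le s z]
      · push_cast; rw [← add_assoc]; linarith
      · have h4 : L (s + z - ((i + 1 : ℕ) : ℝ) • x) = r + L (z - x) := by
          rw [hr, ← map_add]; congr 1; push_cast; rw [add_smul, one_smul]; abel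
        rw [h4, norm_add_sq_real]
        have h5 : inner ℝ r (L (z - x)) ≤ δ := by
          simp only [neg_apply, ContinuousLinearMap.comp_apply,
            innerSL_apply_apply] at hz3
          rw [map_sub, inner_sub_right]; linarith
        have h6 : ‖L (z - x)‖ ≤ ‖L‖ * 2 := by
          refine (L.le_opNorm _).trans ?_
          gcongr
          linarith [norm_sub_le z x]
        have h7 : ‖L (z - x)‖ ^ 2 ≤ (‖L‖ * 2) ^ 2 := by gcongr
        push_cast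
        nlinarith
  obtain ⟨s, h1, h2, h3⟩ := key m
  refine ⟨(m : ℝ)⁻¹ • s, ?_, ?_, ?_⟩
  · rw [norm_smul, norm_inv, Real.norm_natCast, inv_mul_le_iff₀ hmpos]; simpa using h1
  · have : u + (m : ℝ)⁻¹ • s = (m : ℝ)⁻¹ • ((m : ℝ) • u + s) := by
      rw [smul_add, smul_smul, inv_mul_cancel₀ hmpos.ne', one_smul]
    rw [this, norm_smul, norm_inv, Real.norm_natCast, le_inv_mul_iff₀ hmpos]
    nlinarith [min_le_left ε 1]
  · have : (m : ℝ)⁻¹ • s - x = (m : ℝ)⁻¹ • (s - (m : ℝ) • x) := by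
      rw [smul_sub, smul_smul, inv_mul_cancel₀ hmpos.ne', one_smul]
    rw [this, map_smul, norm_smul, norm_inv, Real.norm_natCast, inv_mul_lt_iff₀ hmpos]
    rw [div_lt_iff₀ (by positivity)] at hm
    have h4 : ‖L (s - (m : ℝ) • x)‖ ^ 2 < (m * ε) ^ 2 := by
      calc _ ≤ m * B := h3
        _ < m * (m * ε ^ 2) := by gcongr
        _ = _ := by ring
    exact lt_of_pow_lt_pow_left₀ 2 (by positivity) h4

theorem daugavet_cof (hD : HasDaugavetProperty X) {S : Submodule ℝ X} (hS : Cof S)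
    (u : X) (hu : ‖u‖ = 1) (x : X) (hx : ‖x‖ ≤ 1) {ε : ℝ} (hε : 0 < ε) :
    ∃ z : X, ‖z‖ ≤ 1 ∧ 2 - ε ≤ ‖u + z‖ ∧ ∃ y ∈ S, ‖z - x - y‖ < ε := by
  obtain ⟨n, L, hL⟩ := hS.exists_map
  obtain ⟨ρ, hρ, hL⟩ := hL ε hε
  obtain ⟨z, h1, h2, h3⟩ := daugavet_weak hD L u hu x hx (lt_min hε hρ)
  exact ⟨z, h1, by linarith [min_le_left ε ρ], hL _ (h3.trans_le (min_le_right _ _))⟩

theorem daugavet_hasTrees (hD : HasDaugavetProperty X) [Nontrivial X] : HasTrees X := by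
  refine ⟨1, 1 / 2, by norm_num, fun k => ⟨fun _ => Metric.closedBall 0 1, ⟨0, by simp⟩,
    fun j _ x hx => by simpa using hx, fun j _ x hx S hS η hη => ?_⟩⟩
  have hx' : ‖x‖ ≤ 1 := by simpa using hx
  obtain ⟨u, hu, hux⟩ : ∃ u : X, ‖u‖ = 1 ∧ ‖u + x‖ = 1 - ‖x‖ := by
    by_cases h0 : x = 0
    · obtain ⟨u, hu⟩ := exists_norm_eq X (zero_le_one)
      exact ⟨u, hu, by simp [h0, hu]⟩
    · have hpos : 0 < ‖x‖ := norm_pos_iff.2 h0
      refine ⟨-(‖x‖⁻¹ • x), by simp [norm_smul, hpos.ne'], ?_⟩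
      have : -(‖x‖⁻¹ • x) + x = -((‖x‖⁻¹ - 1) • x) := by rw [sub_smul, one_smul]; abel
      have h1 : 0 ≤ ‖x‖⁻¹ - 1 := by
        have : 1 ≤ ‖x‖⁻¹ := one_le_inv_iff₀.2 ⟨hpos, hx'⟩
        linarith
      rw [this, norm_neg, norm_smul, Real.norm_eq_abs, abs_of_nonneg h1]
      field_simp
  obtain ⟨z, h1, h2, y, hy, h3⟩ := daugavet_cof hD hS u hu x hx' (lt_min hη (by norm_num : (0:ℝ) < 1 / 2))
  refine ⟨z, by simpa using h1, ?_, y, hy, h3.trans_le (min_le_left _ _)⟩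
  have : ‖u + z‖ ≤ ‖u + x‖ + ‖z - x‖ := by
    simpa using norm_add_le (u + x) (z - x)
  linarith [min_le_right η (1 / 2), norm_nonneg x]

/-- the direction along which the norm does not grow -/
theorem daugavet_direction (hD : HasDaugavetProperty X) {S : Submodule ℝ X} (hS : Cof S)
    (x : X) (hx : ‖x‖ = 1) {η : ℝ} (hη : 0 < η) :
    ∃ y ∈ S, ‖y‖ = 1 ∧ ∀ t : ℝ, 0 < t → ‖x + t • y‖ ≤ max 1 (t - 1) + η := by
  set ε : ℝ := min (η / 3) (1 / 4) with hε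
  have hεpos : 0 < ε := lt_min (by positivity) (by norm_num)
  have hε1 : ε ≤ η / 3 := min_le_left _ _
  have hε2 : ε ≤ 1 / 4 := min_le_right _ _
  obtain ⟨z, h1, h2, y, hy, h3⟩ := daugavet_cof hD hS (-x) (by simpa using hx) x hx.le hεpos
  rw [show -x + z = z - x by abel] at h2
  have h4 : ‖z - x‖ ≤ 2 := by linarith [norm_sub_le z x]
  have h5 : |‖z - x‖ - ‖y‖| ≤ ‖z - x - y‖ := abs_norm_sub_norm_le _ _
  rw [abs_le] at h5
  have hypos : 0 < ‖y‖ := by linarith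
  refine ⟨‖y‖⁻¹ • y, S.smul_mem _ hy, by simp [norm_smul, hypos.ne'], ?_⟩
  set v := ‖y‖⁻¹ • y with hv
  have hv1 : ‖v‖ = 1 := by simp [hv, norm_smul, hypos.ne']
  have h6 : ‖x + (2 : ℝ) • v‖ ≤ 1 + η := by
    have e1 : y = ‖y‖ • v := by rw [hv, smul_smul, mul_inv_cancel₀ hypos.ne', one_smul]
    have e2 : x + (2 : ℝ) • v = z - (z - x - y) + (2 - ‖y‖) • v := by
      rw [sub_smul, ← e1]; abel
    have e3 : ‖(2 - ‖y‖) • v‖ ≤ 2 * ε := by
      rw [norm_smul, hv1, mul_one, Real.norm_eq_abs, abs_le]; constructor <;> linarith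
    rw [e2]
    linarith [norm_add_le (z - (z - x - y)) ((2 - ‖y‖) • v), norm_sub_le z (z - x - y)]
  intro t ht
  rcases le_total t 2 with h | h
  · have e : x + t • v = (1 - t / 2) • x + (t / 2) • (x + (2 : ℝ) • v) := by
      clear_value v; module
    have e1 : ‖x + t • v‖ ≤ (1 - t / 2) + (t / 2) * (1 + η) := by
      rw [e]
      refine (norm_add_le _ _).trans ?_
      rw [norm_smul, norm_smul, hx, Real.norm_eq_abs, Real.norm_eq_abs,
        abs_of_nonneg (by linarith), abs_of_nonneg (by linarith)]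
      gcongr
      · simp
    nlinarith [le_max_left 1 (t - 1)]
  · have e : x + t • v = (x + (2 : ℝ) • v) + (t - 2) • v := by
      rw [sub_smul]; abel
    have e1 : ‖x + t • v‖ ≤ 1 + η + (t - 2) := by
      rw [e]
      refine (norm_add_le _ _).trans ?_
      rw [norm_smul, hv1, Real.norm_eq_abs, abs_of_nonneg (by linarith)]
      linarith
    linarith [le_max_right 1 (t - 1)]

end Crest.Agent.R125
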