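import Mathlib
import Crest.Prelude.Def_Diamond
import Crest.Agent.R125.Basic

/-! Distortion of countably branching diamonds in asymptotically midpoint convex spaces. -/

set_option autoImplicit false

namespace Crest.Agent.R125

open Crest.AnalysisR

theorem src_ne_tgt : ∀ (k : ℕ) (e : DiamondEdge k), diamondSrc k e ≠ diamondTgt k e
  | 0, _ => by simp [diamondSrc, diamondTgt]
  | k + 1, (e, i, b) => by cases b <;> simp [diamondSrc, diamondTgt]

theorem adj_src_tgt (k : ℕ) (e : DiamondEdge k) :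
    (diamondGraph k).Adj (diamondSrc k e) (diamondTgt k e) := by
  rw [diamondGraph, SimpleGraph.fromRel_adj]
  exact ⟨src_ne_tgt k e, Or.inl ⟨e, rfl, rfl⟩⟩

theorem adj_cases {k : ℕ} {u v : DiamondVertex k} (h : (diamondGraph k).Adj u v) :
    ∃ e : DiamondEdge k, (diamondSrc k e = u ∧ diamondTgt k e = v) ∨
      (diamondSrc k e = v ∧ diamondTgt k e = u) := by
  rw [diamondGraph, SimpleGraph.fromRel_adj] at h
  rcases h.2 with ⟨e, h⟩ | ⟨e, h⟩
  · exact ⟨e, Or.inl h⟩
  · exact ⟨e, Or.inr h⟩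

theorem diamond_reachable : ∀ (k : ℕ) (u v : DiamondVertex k), (diamondGraph k).Reachable u v
  | 0, u, v => by
    have h : (diamondGraph 0).Reachable false true := (adj_src_tgt 0 ()).reachable
    cases u <;> cases v
    · rfl
    · exact h
    · exact h.symm
    · rfl
  | k + 1, u, v => by
    have h1 : ∀ (e : DiamondEdge k) (i : ℕ), (diamondGraph (k + 1)).Reachable
        (Sum.inl (diamondSrc k e)) (Sum.inr (e, i)) :=
      fun e i => (adj_src_tgt (k + 1) (e, i, false)).reachable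
    have h2 : ∀ (e : DiamondEdge k) (i : ℕ), (diamondGraph (k + 1)).Reachable
        (Sum.inr (e, i)) (Sum.inl (diamondTgt k e)) :=
      fun e i => (adj_src_tgt (k + 1) (e, i, true)).reachable
    have h3 : ∀ a b : DiamondVertex k,
        (diamondGraph (k + 1)).Reachable (Sum.inl a) (Sum.inl b) := by
      intro a b
      obtain ⟨w⟩ := diamond_reachable k a b
      induction w with
      | nil => rfl
      | cons hadj _ ih =>
        refine SimpleGraph.Reachable.trans ?_ ih
        obtain ⟨e, ⟨rfl, rfl⟩ | ⟨rfl, rfl⟩⟩ := adj_cases hadj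
        · exact (h1 e 0).trans (h2 e 0)
        · exact ((h1 e 0).trans (h2 e 0)).symm
    rcases u with a | ⟨e, i⟩ <;> rcases v with b | ⟨e', i'⟩
    · exact h3 a b
    · exact (h3 _ _).trans (h1 e' i')
    · exact (h2 e i).trans (h3 _ _)
    · exact (h2 e i).trans ((h3 _ _).trans (h1 e' i'))

/-- `1`-Lipschitz along edges -/
def EdgeLip (k : ℕ) (φ : DiamondVertex k → ℝ) : Prop :=
  ∀ e : DiamondEdge k, |φ (diamondSrc k e) - φ (diamondTgt k e)| ≤ 1

theorem EdgeLip.sub_le_dist {k : ℕ} {φ : DiamondVertex k → ℝ} (h : EdgeLip k φ)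
    (u v : DiamondVertex k) : φ u - φ v ≤ diamondDist k u v := by
  obtain ⟨w, hw⟩ := (diamond_reachable k u v).exists_walk_length_eq_dist
  rw [diamondDist, ← hw]
  clear hw
  induction w with
  | nil => simp
  | cons hadj _ ih =>
    simp only [SimpleGraph.Walk.length_cons]
    push_cast
    obtain ⟨e, ⟨rfl, rfl⟩ | ⟨rfl, rfl⟩⟩ := adj_cases hadj
    · linarith [(abs_le.1 (h e)).2]
    · linarith [(abs_le.1 (h e)).1]

variable {X : Type*} [NormedAddCommGroup X] [NormedSpace ℝ X]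

/-- homogeneous asymptotic midpoint convexity of power type two -/
def MidConv (X : Type*) [NormedAddCommGroup X] [NormedSpace ℝ X] : Prop :=
  ∀ (x : X) (η : ℝ), 0 < η → ∃ S : Submodule ℝ X, Cof S ∧
    ∀ z ∈ S, √(‖x‖ ^ 2 + ‖z‖ ^ 2 / 4) - η ≤ max ‖x + z‖ ‖x - z‖

theorem MidConv.step (hX : MidConv X) (p q : X) (w : ℕ → X) {s L : ℝ} (hs : 0 < s)
    (h1 : ∀ i, ‖p - w i‖ ≤ L) (h2 : ∀ i, ‖w i - q‖ ≤ L)
    (h3 : ∀ i j, i ≠ j → 2 * s ≤ ‖w i - w j‖) : ‖p - q‖ ^ 2 / 4 + s ^ 2 / 4 ≤ L ^ 2 := by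
  have hL : 0 ≤ L := (norm_nonneg _).trans (h1 0)
  set x : X := (1 / 2 : ℝ) • (p - q) with hx
  have hxn : ‖x‖ ^ 2 = ‖p - q‖ ^ 2 / 4 := by
    rw [hx, norm_smul]; simp only [Real.norm_eq_abs]; rw [mul_pow, sq_abs]; ring
  have main : ∀ η : ℝ, 0 < η → η ≤ s → ‖x‖ ^ 2 + (s - η) ^ 2 / 4 ≤ (L + 2 * η) ^ 2 := by
    intro η hη hηs
    obtain ⟨S, hS, hS'⟩ := hX x η hη
    obtain ⟨i, j, hij, y, hy, hd⟩ := exists_pair_near (fun i => (1 / 2 : ℝ) • (w i - q)) L
      (fun i => by
        rw [norm_smul]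
        have := h2 i
        simp only [one_div, norm_inv, Real.norm_ofNat]
        linarith) hS hη
    set z : X := (1 / 2 : ℝ) • (w i - q) - (1 / 2 : ℝ) • (w j - q) with hz
    have hzn : s ≤ ‖z‖ := by
      rw [show z = (1 / 2 : ℝ) • (w i - w j) by rw [hz]; module, norm_smul]
      have := h3 i j hij
      simp only [one_div, norm_inv, Real.norm_ofNat]
      linarith
    have hp : ‖x + z‖ ≤ L := by
      rw [show x + z = (1 / 2 : ℝ) • ((p - w j) + (w i - q)) by rw [hx, hz]; module, norm_smul]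
      simp only [one_div, norm_inv, Real.norm_ofNat]
      linarith [norm_add_le (p - w j) (w i - q), h1 j, h2 i]
    have hm : ‖x - z‖ ≤ L := by
      rw [show x - z = (1 / 2 : ℝ) • ((p - w i) + (w j - q)) by rw [hx, hz]; module, norm_smul]
      simp only [one_div, norm_inv, Real.norm_ofNat]
      linarith [norm_add_le (p - w i) (w j - q), h1 i, h2 j]
    have hp' : ‖x + y‖ ≤ L + η := by
      have := norm_sub_le (x + z) (z - y)
      rw [show x + z - (z - y) = x + y by abel] at this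
      linarith
    have hm' : ‖x - y‖ ≤ L + η := by
      have := norm_add_le (x - z) (z - y)
      rw [show x - z + (z - y) = x - y by abel] at this
      linarith
    have hyn : s - η ≤ ‖y‖ := by linarith [norm_sub_norm_le z y]
    have h4 := hS' y hy
    have h5 : √(‖x‖ ^ 2 + ‖y‖ ^ 2 / 4) ≤ L + 2 * η := by
      linarith [max_le hp' hm']
    rw [Real.sqrt_le_iff] at h5
    have h6 : (s - η) ^ 2 ≤ ‖y‖ ^ 2 := by
      have : 0 ≤ s - η := by linarith
      gcongr
    linarith [h5.2]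
  rw [← hxn]
  have hc : ContinuousAt (fun η : ℝ => (L + 2 * η) ^ 2 - (‖x‖ ^ 2 + (s - η) ^ 2 / 4)) 0 := by
    fun_prop
  have hlim := hc.tendsto.mono_left (nhdsWithin_le_nhds (s := Set.Ioi 0))
  have : (0 : ℝ) ≤ (L + 2 * 0) ^ 2 - (‖x‖ ^ 2 + (s - 0) ^ 2 / 4) := by
    refine ge_of_tendsto hlim ?_
    filter_upwards [Ioo_mem_nhdsGT hs] with η hη
    linarith [main η hη.1 hη.2.le]
  simp only [mul_zero, add_zero, sub_zero] at this
  linarith

theorem MidConv.diamond_aux (hX : MidConv X) : ∀ (k : ℕ) (f : DiamondVertex k → X) (s L : ℝ),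
    0 < s → (∀ φ, EdgeLip k φ → ∀ u v, s * (φ u - φ v) ≤ ‖f u - f v‖) →
    (∀ e, ‖f (diamondSrc k e) - f (diamondTgt k e)‖ ≤ L) → s ^ 2 * (1 + k / 4) ≤ L ^ 2
  | 0, f, s, L, hs, h1, h2 => by
    have h3 := h1 (fun u : Bool => if u then 0 else 1) (fun e => by
      simp [diamondSrc, diamondTgt]) false true
    have h4 := h2 ()
    simp only [diamondSrc, diamondTgt] at h4
    simp only [Bool.false_eq_true, ↓reduceIte, sub_zero, mul_one] at h3
    have : s ≤ L := h3.trans h4
    simp only [CharP.cast_eq_zero, zero_div, add_zero, mul_one]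
    gcongr
  | k + 1, f, s, L, hs, h1, h2 => by
    have hstep : ∀ e : DiamondEdge k,
        ‖f (Sum.inl (diamondSrc k e)) - f (Sum.inl (diamondTgt k e))‖ ^ 2 / 4 + s ^ 2 / 4 ≤
          L ^ 2 := by
      intro e
      refine hX.step _ _ (fun i => f (Sum.inr (e, i))) hs (fun i => h2 (e, i, false))
        (fun i => h2 (e, i, true)) fun i j hij => ?_
      have := h1 (Sum.elim (fun _ => 0)
        (fun w : DiamondEdge k × ℕ => if w.2 = i then 1 else -1)) (by
          rintro ⟨e', i', b⟩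
          cases b <;> simp only [diamondSrc, diamondTgt, cond_false, cond_true, Sum.elim_inl,
            Sum.elim_inr] <;> split_ifs <;> simp) (Sum.inr (e, i)) (Sum.inr (e, j))
      simp only [Sum.elim_inr, ↓reduceIte, hij.symm] at this
      linarith
    have ih := hX.diamond_aux k (fun u => f (Sum.inl u)) (2 * s) (2 * √(L ^ 2 - s ^ 2 / 4))
      (by positivity) (fun φ hφ u v => by
        have := h1 (Sum.elim (fun w => 2 * φ w)
          (fun w : DiamondEdge k × ℕ => φ (diamondSrc k w.1) + φ (diamondTgt k w.1))) (by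
            rintro ⟨e', i', b⟩
            have := hφ e'
            cases b <;> simp only [diamondSrc, diamondTgt, cond_false, cond_true, Sum.elim_inl,
              Sum.elim_inr]
            · convert this using 2; ring
            · convert this using 2; ring) (Sum.inl u) (Sum.inl v)
        simp only [Sum.elim_inl] at this
        linarith)
      (fun e => by
        have h := hstep e
        have : ‖f (Sum.inl (diamondSrc k e)) - f (Sum.inl (diamondTgt k e))‖ / 2 ≤
            √(L ^ 2 - s ^ 2 / 4) := Real.le_sqrt_of_sq_le (by linarith)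
        linarith)
    obtain ⟨e⟩ : Nonempty (DiamondEdge k) := by
      clear ih hstep h1 h2 f
      induction k with
      | zero => exact ⟨()⟩
      | succ k ih => exact ⟨(ih.some, 0, false)⟩
    have h0 : 0 ≤ L ^ 2 - s ^ 2 / 4 := by
      have := hstep e
      nlinarith [sq_nonneg ‖f (Sum.inl (diamondSrc k e)) - f (Sum.inl (diamondTgt k e))‖]
    rw [mul_pow, mul_pow, Real.sq_sqrt h0] at ih
    push_cast
    nlinarith

theorem MidConv.diamond (hX : MidConv X) (k : ℕ) (f : DiamondVertex k → X) (D s : ℝ) (hs : 0 < s)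
    (h : ∀ u v, s * (diamondDist k u v : ℝ) ≤ ‖f u - f v‖ ∧
      ‖f u - f v‖ ≤ D * s * (diamondDist k u v : ℝ)) : 1 + (k : ℝ) / 4 ≤ D ^ 2 := by
  have := hX.diamond_aux k f s (D * s) hs
    (fun φ hφ u v => le_trans (by gcongr; exact hφ.sub_le_dist u v) (h u v).1)
    (fun e => by
      have h1 := (h (diamondSrc k e) (diamondTgt k e)).2
      rwa [diamondDist, SimpleGraph.dist_eq_one_iff_adj.2 (adj_src_tgt k e), Nat.cast_one,
        mul_one] at h1)
  rw [mul_pow, mul_comm (D ^ 2)] at this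
  exact le_of_mul_le_mul_left this (by positivity)

/-- the maximum-based bound gives the averaged bounds -/
theorem MidConv.avg (hX : MidConv X) (x : X) (hx : ‖x‖ = 1) {t η : ℝ} (ht : 0 < t) (hη : 0 < η) :
    ∃ S : Submodule ℝ X, Cof S ∧ ∀ y ∈ S, ‖y‖ = 1 →
      √(1 + t ^ 2 / 4) - 1 - η ≤ max ‖x + t • y‖ ‖x - t • y‖ - 1 ∧
      (√(1 + t ^ 2 / 4) - 1) / 2 - η ≤ (‖x + t • y‖ + ‖x - t • y‖) / 2 - 1 ∧
      √(1 + t ^ 2 / 12) - 1 - η ≤ (‖x + t • y‖ + ‖x - t • y‖) / 2 - 1 := by
  obtain ⟨S, hS, h⟩ := hX x η hη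
  obtain ⟨φ, hφ, hφx⟩ := exists_dual_vector ℝ x (by rw [hx]; norm_num)
  refine ⟨_, hS.inf (cof_ker φ), fun y hy hy1 => ?_⟩
  have hy0 : φ y = 0 := hy.2
  have h1 := h (t • y) (S.smul_mem t hy.1)
  rw [hx, norm_smul, hy1, Real.norm_eq_abs, mul_one, sq_abs, one_pow] at h1
  have h2 : 1 ≤ ‖x + t • y‖ := by
    have := φ.le_opNorm (x + t • y)
    rw [map_add, map_smul, hy0, hφx, hφ, hx] at this
    simpa using this
  have h3 : 1 ≤ ‖x - t • y‖ := by
    have := φ.le_opNorm (x - t • y)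
    rw [map_sub, map_smul, hy0, hφx, hφ, hx] at this
    simpa using this
  have h4 : 2 * t ≤ ‖x + t • y‖ + ‖x - t • y‖ := by
    have := norm_sub_le (x + t • y) (x - t • y)
    rw [show x + t • y - (x - t • y) = (2 * t) • y by module, norm_smul, hy1,
      Real.norm_eq_abs, abs_of_pos (by positivity), mul_one] at this
    exact this
  have h5 : 1 + max ‖x + t • y‖ ‖x - t • y‖ ≤ ‖x + t • y‖ + ‖x - t • y‖ := by
    rcases le_total ‖x + t • y‖ ‖x - t • y‖ with h | h
    · rw [max_eq_right h]; linarith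
    · rw [max_eq_left h]; linarith
  refine ⟨by linarith, by linarith, ?_⟩
  rcases le_total (t ^ 2) 96 with h6 | h6
  · have h7 : √(1 + t ^ 2 / 12) ≤ (1 + √(1 + t ^ 2 / 4)) / 2 := by
      have h8 : 1 + t ^ 2 / 24 ≤ √(1 + t ^ 2 / 4) :=
        Real.le_sqrt_of_sq_le (by nlinarith [sq_nonneg t])
      have h9 : √(1 + t ^ 2 / 4) ^ 2 = 1 + t ^ 2 / 4 := Real.sq_sqrt (by positivity)
      rw [Real.sqrt_le_iff]
      exact ⟨by positivity, by nlinarith⟩
    linarith
  · have h7 : √(1 + t ^ 2 / 12) ≤ t := Real.sqrt_le_iff.2 ⟨ht.le, by nlinarith⟩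
    linarith

end Crest.Agent.R125
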