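import Mathlib
import Crest.Prelude.Def_TreePotentials

/-! Combinatorics of potentials on the countably branching tree. -/

set_option autoImplicit false

namespace Crest.Agent.R125

open Crest.AnalysisR Crest.AnalysisR.TreePotential

/-- last ancestor in `T` -/
def lastIn (T : Finset (List ℕ)) : List ℕ → List ℕ
  | [] => []
  | a :: v => if a :: v ∈ T then a :: v else lastIn T v

/-- coefficient family with prescribed potential -/
def coeffOf (H : List ℕ → ℝ) : List ℕ → ℝ
  | [] => H []
  | a :: v => H (a :: v) - H v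

theorem pathPotential_coeffOf (H : List ℕ → ℝ) (s : List ℕ) :
    pathPotential (coeffOf H) s = H s := by
  induction s with
  | nil => rfl
  | cons a v ih => simp [pathPotential, coeffOf, ih]

theorem lastIn_of_mem {T : Finset (List ℕ)} {s : List ℕ} (hs : s ∈ T) : lastIn T s = s := by
  cases s with
  | nil => rfl
  | cons a v => simp [lastIn, hs]

theorem lastIn_prop (T : Finset (List ℕ)) (Q : List ℕ → Prop) (hQ : ∀ a v, Q (a :: v) → Q v)
    (s : List ℕ) (hs : Q s) : Q (lastIn T s) := by
  induction s with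
  | nil => exact hs
  | cons a v ih =>
    simp only [lastIn]
    split_ifs
    · exact hs
    · exact ih (hQ a v hs)

theorem pathPotential_neg (f : List ℕ → ℝ) (s : List ℕ) :
    pathPotential (-f) s = -pathPotential f s := by
  induction s with
  | nil => rfl
  | cons a v ih => simp only [pathPotential, ih, Pi.neg_apply]; ring

theorem pathPotential_zero (s : List ℕ) : pathPotential 0 s = 0 := by
  induction s with
  | nil => rfl
  | cons a v ih => simp [pathPotential, ih]

theorem pathPotential_single (u s : List ℕ) :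
    pathPotential (Pi.single u 1) s = if u <:+ s then 1 else 0 := by
  induction s with
  | nil =>
    simp only [pathPotential, List.suffix_nil]
    by_cases h : u = []
    · simp [h]
    · simp [h, Ne.symm h]
  | cons a v ih =>
    simp only [pathPotential, ih, List.suffix_cons_iff]
    by_cases h : u = a :: v
    · subst h
      have : ¬ (a :: v) <:+ v := fun h => by simpa using h.length_le
      simp [this]
    · simp [h, Ne.symm h]

theorem abs_pathPotential_single (u s : List ℕ) : |pathPotential (Pi.single u 1) s| ≤ 1 := by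
  rw [pathPotential_single]; split_ifs <;> simp

/-- the two one-sided truncations -/
noncomputable def thetaP (b d : ℝ) : ℝ := if 0 ≤ b then min d 0 else max d 0

/-- the two one-sided truncations -/
noncomputable def thetaM (b d : ℝ) : ℝ := if 0 ≤ b then -max d 0 else -min d 0

theorem thetaP_sub_thetaM (b d : ℝ) : thetaP b d - thetaM b d = d := by
  unfold thetaP thetaM
  split_ifs <;> rcases le_total d 0 with h | h <;> simp [h]

theorem thetaP_lip (b d d' : ℝ) : |thetaP b d - thetaP b d'| ≤ |d - d'| := by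
  unfold thetaP
  split_ifs
  · exact abs_min_sub_min_le_max d 0 d' 0 |>.trans (by simp)
  · exact abs_max_sub_max_le_abs d d' 0

theorem thetaM_lip (b d d' : ℝ) : |thetaM b d - thetaM b d'| ≤ |d - d'| := by
  unfold thetaM
  split_ifs
  · rw [show -max d 0 - -max d' 0 = -(max d 0 - max d' 0) by ring, abs_neg]
    exact abs_max_sub_max_le_abs d d' 0
  · rw [show -min d 0 - -min d' 0 = -(min d 0 - min d' 0) by ring, abs_neg]
    exact abs_min_sub_min_le_max d 0 d' 0 |>.trans (by simp)

theorem theta_bound {α β b d : ℝ} (hα0 : 0 ≤ α) (hα : α ≤ 1) (hβ0 : 0 ≤ β) (hβ : β ≤ 1 / 2)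
    (hb : |b| ≤ 1) (hd : |d| ≤ 2) :
    |α * b + β * thetaP b d| ≤ 1 ∧ |α * b + β * thetaM b d| ≤ 1 := by
  rw [abs_le] at hb hd
  unfold thetaP thetaM
  split_ifs with h
  · have h1 : α * b ≤ 1 := by nlinarith
    have h2 : 0 ≤ α * b := mul_nonneg hα0 h
    rcases le_total d 0 with h' | h'
    · simp only [min_eq_left h', max_eq_right h', abs_le]
      refine ⟨⟨by nlinarith, by nlinarith⟩, by nlinarith, by nlinarith⟩
    · simp only [min_eq_right h', max_eq_left h', abs_le]
      refine ⟨⟨by nlinarith, by nlinarith⟩, by nlinarith, by nlinarith⟩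
  · push Not at h
    have h1 : -1 ≤ α * b := by nlinarith
    have h2 : α * b ≤ 0 := by nlinarith
    rcases le_total d 0 with h' | h'
    · simp only [min_eq_left h', max_eq_right h', abs_le]
      refine ⟨⟨by nlinarith, by nlinarith⟩, by nlinarith, by nlinarith⟩
    · simp only [min_eq_right h', max_eq_left h', abs_le]
      refine ⟨⟨by nlinarith, by nlinarith⟩, by nlinarith, by nlinarith⟩

/-- Mixing two coefficient families with bounded potentials. -/
theorem exists_mix (Q : List ℕ → Prop) (hQ : ∀ a v, Q (a :: v) → Q v) (T : Finset (List ℕ))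
    (hT0 : [] ∈ T) (hT : ∀ a v, a :: v ∈ T → v ∈ T) (f g : List ℕ → ℝ)
    (hf : ∀ s, Q s → |pathPotential f s| ≤ 1) (hg : ∀ s, Q s → |pathPotential g s| ≤ 1)
    {α β : ℝ} (hα0 : 0 ≤ α) (hα : α ≤ 1) (hβ0 : 0 ≤ β) (hβ : β ≤ 1 / 2) :
    ∃ h₁ h₂ : List ℕ → ℝ, (∀ s, Q s → |pathPotential h₁ s| ≤ 1) ∧
      (∀ s, Q s → |pathPotential h₂ s| ≤ 1) ∧ (∀ s ∈ T, h₁ s = α * f s) ∧
      (∀ s ∈ T, h₂ s = α * f s) ∧ (∀ s ∉ T, |h₁ s| ≤ β * |g s|) ∧ (∀ s ∉ T, |h₂ s| ≤ β * |g s|) ∧
      ∀ s ∉ T, h₁ s - h₂ s = β * g s := by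
  set B : List ℕ → ℝ := fun s => pathPotential f (lastIn T s) with hB
  set D : List ℕ → ℝ := fun s => pathPotential g s - pathPotential g (lastIn T s) with hD
  have hbd : ∀ s, Q s → |B s| ≤ 1 ∧ |D s| ≤ 2 := by
    intro s hs
    have h1 := lastIn_prop T Q hQ s hs
    refine ⟨hf _ h1, ?_⟩
    have h2 := hg _ h1
    have h3 := hg _ hs
    rw [abs_le] at h2 h3 ⊢
    simp only [hD]
    constructor <;> linarith
  have hin : ∀ s ∈ T, B s = pathPotential f s ∧ D s = 0 := by
    intro s hs
    simp [hB, hD, lastIn_of_mem hs]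
  have hout : ∀ a v, a :: v ∉ T → B (a :: v) = B v ∧ D (a :: v) - D v = g (a :: v) := by
    intro a v h
    simp only [hB, hD, lastIn, h, if_false, pathPotential, true_and]
    ring
  have t0 : ∀ b, thetaP b 0 = 0 ∧ thetaM b 0 = 0 := fun b => by simp [thetaP, thetaM]
  refine ⟨coeffOf fun s => α * B s + β * thetaP (B s) (D s),
    coeffOf fun s => α * B s + β * thetaM (B s) (D s), ?_, ?_, ?_, ?_, ?_, ?_, ?_⟩
  · intro s hs
    rw [pathPotential_coeffOf]
    exact (theta_bound hα0 hα hβ0 hβ (hbd s hs).1 (hbd s hs).2).1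
  · intro s hs
    rw [pathPotential_coeffOf]
    exact (theta_bound hα0 hα hβ0 hβ (hbd s hs).1 (hbd s hs).2).2
  · intro s hs
    cases s with
    | nil => simp [coeffOf, hin _ hs, t0, pathPotential]
    | cons a v => simp only [coeffOf, hin _ hs, hin _ (hT a v hs), t0, pathPotential]; ring
  · intro s hs
    cases s with
    | nil => simp [coeffOf, hin _ hs, t0, pathPotential]
    | cons a v => simp only [coeffOf, hin _ hs, hin _ (hT a v hs), t0, pathPotential]; ring
  · intro s hs
    cases s with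
    | nil => exact absurd hT0 hs
    | cons a v =>
      simp only [coeffOf, (hout a v hs).1]
      rw [← (hout a v hs).2, show ∀ x y z : ℝ, x + β * y - (x + β * z) = β * (y - z) by
        intros; ring, abs_mul, abs_of_nonneg hβ0]
      exact mul_le_mul_of_nonneg_left (thetaP_lip _ _ _) hβ0
  · intro s hs
    cases s with
    | nil => exact absurd hT0 hs
    | cons a v =>
      simp only [coeffOf, (hout a v hs).1]
      rw [← (hout a v hs).2, show ∀ x y z : ℝ, x + β * y - (x + β * z) = β * (y - z) by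
        intros; ring, abs_mul, abs_of_nonneg hβ0]
      exact mul_le_mul_of_nonneg_left (thetaM_lip _ _ _) hβ0
  · intro s hs
    cases s with
    | nil => exact absurd hT0 hs
    | cons a v =>
      simp only [coeffOf, (hout a v hs).1]
      rw [← (hout a v hs).2]
      have h1 := thetaP_sub_thetaM (B v) (D (a :: v))
      have h2 := thetaP_sub_thetaM (B v) (D v)
      linear_combination β * h1 - β * h2

theorem sq_le_mix {T : Finset (List ℕ)} {f g h : List ℕ → ℝ} {α β : ℝ}
    (h1 : ∀ s ∈ T, h s = α * f s) (h2 : ∀ s ∉ T, |h s| ≤ β * |g s|) (s : List ℕ) :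
    h s ^ 2 ≤ α ^ 2 * f s ^ 2 + β ^ 2 * g s ^ 2 := by
  by_cases hs : s ∈ T
  · rw [h1 s hs]; nlinarith [sq_nonneg (β * g s)]
  · have h3 := h2 s hs
    have h4 : |h s| ^ 2 ≤ (β * |g s|) ^ 2 := by gcongr
    rw [mul_pow, sq_abs, sq_abs] at h4
    nlinarith [sq_nonneg (α * f s)]

theorem sum_le_mix {ι : Type*} (A : Finset ι) (j : ι → List ℕ) {f g h : List ℕ → ℝ} {α β : ℝ}
    (hαβ : α ^ 2 + β ^ 2 ≤ 1) (hh : ∀ s, h s ^ 2 ≤ α ^ 2 * f s ^ 2 + β ^ 2 * g s ^ 2)
    (hf : ∑ i ∈ A, f (j i) ^ 2 ≤ 1) (hg : ∑ i ∈ A, g (j i) ^ 2 ≤ 1) :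
    ∑ i ∈ A, h (j i) ^ 2 ≤ 1 := by
  calc ∑ i ∈ A, h (j i) ^ 2 ≤ ∑ i ∈ A, (α ^ 2 * f (j i) ^ 2 + β ^ 2 * g (j i) ^ 2) :=
        Finset.sum_le_sum fun i _ => hh _
    _ = α ^ 2 * ∑ i ∈ A, f (j i) ^ 2 + β ^ 2 * ∑ i ∈ A, g (j i) ^ 2 := by
        rw [Finset.sum_add_distrib, Finset.mul_sum, Finset.mul_sum]
    _ ≤ α ^ 2 * 1 + β ^ 2 * 1 := by gcongr
    _ ≤ 1 := by linarith

theorem extra_mix (m : PotentialModel) {T : Finset (List ℕ)} (hT0 : [] ∈ T)
    {f g h : List ℕ → ℝ} {α β : ℝ} (hαβ : α ^ 2 + β ^ 2 ≤ 1)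
    (h1 : ∀ s ∈ T, h s = α * f s) (h2 : ∀ s ∉ T, |h s| ≤ β * |g s|)
    (hf : ExtraCondition m f) (hg : ExtraCondition m g) : ExtraCondition m h := by
  have hh := sq_le_mix h1 h2
  cases m with
  | rootlessSibling =>
    exact ⟨by rw [h1 _ hT0, hf.1, mul_zero],
      fun r A => sum_le_mix A (· :: r) hαβ hh (hf.2 r A) (hg.2 r A)⟩
  | rootedSibling => exact fun r A => sum_le_mix A (· :: r) hαβ hh (hf r A) (hg r A)
  | antichain =>
    refine ⟨(T.finite_toSet.union hg.1).subset fun s hs => ?_,
      fun A hA => sum_le_mix A id hαβ hh (hf.2 A hA) (hg.2 A hA)⟩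
    by_cases hsT : s ∈ T
    · exact Or.inl hsT
    · right
      intro h0
      have := h2 s hsT
      rw [h0, abs_zero, mul_zero] at this
      exact hs (abs_nonpos_iff.1 this)
  | global => exact fun A => sum_le_mix A id hαβ hh (hf A) (hg A)

theorem extra_neg (m : PotentialModel) {f : List ℕ → ℝ} (hf : ExtraCondition m f) :
    ExtraCondition m (-f) := by
  cases m with
  | rootlessSibling => exact ⟨by simp [hf.1], fun r A => by simpa using hf.2 r A⟩
  | rootedSibling => exact fun r A => by simpa using hf r A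
  | antichain => exact ⟨by simpa using hf.1, fun A hA => by simpa using hf.2 A hA⟩
  | global => exact fun A => by simpa using hf A

theorem extra_zero (m : PotentialModel) : ExtraCondition m 0 := by
  cases m with
  | rootlessSibling => exact ⟨rfl, fun r A => by simp⟩
  | rootedSibling => exact fun r A => by simp
  | antichain => exact ⟨by simp, fun A hA => by simp⟩
  | global => exact fun A => by simp

theorem sum_single_sq_le {ι : Type*} (A : Finset ι) (j : ι → List ℕ) (hj : Function.Injective j)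
    (u : List ℕ) : ∑ i ∈ A, (Pi.single u (1 : ℝ) : List ℕ → ℝ) (j i) ^ 2 ≤ 1 := by
  classical
  have : ∑ i ∈ A, (Pi.single u (1 : ℝ) : List ℕ → ℝ) (j i) ^ 2 =
      ∑ s ∈ A.map ⟨j, hj⟩, if s = u then (1 : ℝ) else 0 := by
    rw [Finset.sum_map]
    refine Finset.sum_congr rfl fun i _ => ?_
    simp only [Pi.single_apply, Function.Embedding.coeFn_mk]
    split_ifs <;> simp
  rw [this, Finset.sum_ite_eq']
  split_ifs <;> simp

theorem extra_single (m : PotentialModel) (u : List ℕ) (hu : u ≠ [] ∨ m ≠ .rootlessSibling) :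
    ExtraCondition m (Pi.single u 1) := by
  have hc : ∀ r : List ℕ, Function.Injective fun n : ℕ => n :: r := fun r a b h => by simpa using h
  cases m with
  | rootlessSibling =>
    refine ⟨?_, fun r A => sum_single_sq_le A _ (hc r) u⟩
    rcases hu with hu | hu
    · simp [Ne.symm hu]
    · exact absurd rfl hu
  | rootedSibling => exact fun r A => sum_single_sq_le A _ (hc r) u
  | antichain =>
    exact ⟨(Set.finite_singleton u).subset Pi.support_single_subset,
      fun A _ => sum_single_sq_le A id Function.injective_id u⟩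
  | global => exact fun A => sum_single_sq_le A id Function.injective_id u

theorem extra_sibling (m : PotentialModel) {f : List ℕ → ℝ} (hf : ExtraCondition m f)
    (r : List ℕ) (A : Finset ℕ) : ∑ n ∈ A, f (n :: r) ^ 2 ≤ 1 := by
  let e : ℕ ↪ List ℕ := ⟨fun n => n :: r, fun a b h => by simpa using h⟩
  cases m with
  | rootlessSibling => exact hf.2 r A
  | rootedSibling => exact hf r A
  | antichain =>
    have := hf.2 (A.map e) (by
      intro u hu v hv huv hs
      obtain ⟨a, -, rfl⟩ := Finset.mem_map.1 hu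
      obtain ⟨b, -, rfl⟩ := Finset.mem_map.1 hv
      exact huv (hs.eq_of_length (by simp [e])))
    rwa [Finset.sum_map] at this
  | global =>
    have := hf (A.map e)
    rwa [Finset.sum_map] at this

end Crest.Agent.R125
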