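import Mathlib
import Crest.Agent.R125.Basic
import Crest.Agent.R125.TreeComb

/-! Normed spaces generated by coordinate vectors and normed by a family of tests. -/

set_option autoImplicit false

namespace Crest.Agent.R125

open Crest.AnalysisR Crest.AnalysisR.TreePotential

/-- tests: potentials bounded on `Q`, and the extra condition of the model -/
def Tst (Q : List ℕ → Prop) (m : PotentialModel) (f : List ℕ → ℝ) : Prop :=
  (∀ s, Q s → |pathPotential f s| ≤ 1) ∧ ExtraCondition m f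

/-- a normed space generated by coordinate vectors and normed by the tests satisfying `P` -/
structure TreeModel (X : Type) [NormedAddCommGroup X] [NormedSpace ℝ X]
    (P : (List ℕ → ℝ) → Prop) where
  /-- evaluation at a test -/
  ev : {f // P f} → X →L[ℝ] ℝ
  /-- coordinate vectors -/
  e : List ℕ → X
  ev_e : ∀ f s, ev f (e s) = f.1 s
  le_norm : ∀ f x, ev f x ≤ ‖x‖
  norm_le : ∀ x C, 0 ≤ C → (∀ f, |ev f x| ≤ C) → ‖x‖ ≤ C
  dense : Dense (Submodule.span ℝ (Set.range e) : Set X)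

/-- the closed span of the coordinate vectors inside bounded functions on tests -/
noncomputable def mkModel (P : (List ℕ → ℝ) → Prop)
    (e : List ℕ → lp (fun _ : {f // P f} => ℝ) ⊤) (he : ∀ s f, e s f = f.1 s) :
    TreeModel (Submodule.span ℝ (Set.range e)).topologicalClosure P where
  ev f := (LinearMap.mkContinuous
    { toFun := fun x : lp (fun _ : {f // P f} => ℝ) ⊤ => x f
      map_add' := fun _ _ => rfl
      map_smul' := fun _ _ => rfl } 1
    (fun x => by simpa using lp.norm_apply_le_norm ENNReal.top_ne_zero x f)).comp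
      (Submodule.subtypeL _)
  e s := ⟨e s, Submodule.le_topologicalClosure _ (Submodule.subset_span ⟨s, rfl⟩)⟩
  ev_e f s := he s f
  le_norm f x := (le_abs_self _).trans (lp.norm_apply_le_norm ENNReal.top_ne_zero x.1 f)
  norm_le x C hC h := lp.norm_le_of_forall_le hC h
  dense := by
    rw [Subtype.dense_iff]
    intro x hx
    have : (Subtype.val '' (Submodule.span ℝ (Set.range fun s =>
        (⟨e s, Submodule.le_topologicalClosure _ (Submodule.subset_span ⟨s, rfl⟩)⟩ :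
          (Submodule.span ℝ (Set.range e)).topologicalClosure)) :
          Set (Submodule.span ℝ (Set.range e)).topologicalClosure)) =
        (Submodule.span ℝ (Set.range e) : Set _) := by
      have h := Submodule.map_span (Submodule.span ℝ (Set.range e)).topologicalClosure.subtype
        (Set.range fun s =>
        (⟨e s, Submodule.le_topologicalClosure _ (Submodule.subset_span ⟨s, rfl⟩)⟩ :
          (Submodule.span ℝ (Set.range e)).topologicalClosure))
      rw [← Set.range_comp] at h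
      exact congrArg SetLike.coe h
    exact closure_mono this.symm.subset hx

theorem sqrt_sq_add_le {a a' c ε : ℝ} (ha : 0 ≤ a) (hc : 0 ≤ c) (hε : 0 ≤ ε)
    (h : a ≤ a' + ε) : √(a ^ 2 + c) ≤ √(a' ^ 2 + c) + ε := by
  have h1 : a' ≤ √(a' ^ 2 + c) := Real.le_sqrt_of_sq_le (by linarith)
  have h2 : √(a' ^ 2 + c) ^ 2 = a' ^ 2 + c := Real.sq_sqrt (by positivity)
  rw [Real.sqrt_le_iff]
  refine ⟨by positivity, ?_⟩
  have : a ^ 2 ≤ (a' + ε) ^ 2 := by gcongr
  nlinarith

namespace TreeModel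

variable {X : Type} [NormedAddCommGroup X] [NormedSpace ℝ X] {Q : List ℕ → Prop}
  {m : PotentialModel} (M : TreeModel X (Tst Q m))

theorem ext_e {Y : Type*} [NormedAddCommGroup Y] [NormedSpace ℝ Y] {L L' : X →L[ℝ] Y}
    (h : ∀ s, L (M.e s) = L' (M.e s)) : L = L' :=
  ContinuousLinearMap.ext_on M.dense (by rintro _ ⟨s, rfl⟩; exact h s)

theorem tst_neg {f : List ℕ → ℝ} (hf : Tst Q m f) : Tst Q m (-f) :=
  ⟨fun s hs => by rw [pathPotential_neg, abs_neg]; exact hf.1 s hs, extra_neg m hf.2⟩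

theorem tst_zero : Tst Q m 0 :=
  ⟨fun s _ => by simp [pathPotential_zero], extra_zero m⟩

theorem tst_single (u : List ℕ) (hu : u ≠ [] ∨ m ≠ .rootlessSibling) :
    Tst Q m (Pi.single u 1) :=
  ⟨fun s _ => abs_pathPotential_single u s, extra_single m u hu⟩

theorem ev_neg (f : {f // Tst Q m f}) (x : X) : M.ev ⟨-f.1, tst_neg f.2⟩ x = -M.ev f x := by
  have : M.ev ⟨-f.1, tst_neg f.2⟩ = -M.ev f := M.ext_e fun s => by simp [M.ev_e]
  rw [this]; rfl

theorem ev_zero (x : X) : M.ev ⟨0, tst_zero⟩ x = 0 := by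
  have : M.ev ⟨0, tst_zero⟩ = 0 := M.ext_e fun s => by simp [M.ev_e]
  rw [this]; rfl

theorem abs_ev_le (f : {f // Tst Q m f}) (x : X) : |M.ev f x| ≤ ‖x‖ := by
  rw [abs_le]
  refine ⟨?_, M.le_norm f x⟩
  have := M.le_norm ⟨-f.1, tst_neg f.2⟩ x
  rw [M.ev_neg] at this
  linarith

theorem norm_le' (x : X) (C : ℝ) (h : ∀ f, M.ev f x ≤ C) : ‖x‖ ≤ C := by
  refine M.norm_le x C (by simpa [M.ev_zero] using h ⟨0, tst_zero⟩) fun f => ?_
  rw [abs_le]
  refine ⟨?_, h f⟩
  have := h ⟨-f.1, tst_neg f.2⟩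
  rw [M.ev_neg] at this
  linarith

/-- the point tests -/
theorem exists_pt (s : List ℕ) : ∃ τ : {f // Tst Q m f}, ∀ (g : {f // Tst Q m f}) (u : List ℕ),
    g.1 s * τ.1 u = if u = s then g.1 s else 0 := by
  by_cases h : s ≠ [] ∨ m ≠ .rootlessSibling
  · refine ⟨⟨_, tst_single s h⟩, fun g u => ?_⟩
    simp only [Pi.single_apply]
    split_ifs <;> simp
  · push Not at h
    obtain ⟨rfl, rfl⟩ := h
    refine ⟨⟨0, tst_zero⟩, fun g u => ?_⟩
    have : g.1 [] = 0 := g.2.2.1
    simp [this]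

theorem key_span (hQ : ∀ a v, Q (a :: v) → Q v) (x : X)
    (hx : x ∈ Submodule.span ℝ (Set.range M.e)) :
    ∃ S : Submodule ℝ X, Cof S ∧ ∀ y ∈ S, 2 * √(‖x‖ ^ 2 + ‖y‖ ^ 2 / 4) ≤ ‖x + y‖ + ‖x - y‖ := by
  classical
  obtain ⟨c, rfl⟩ := Finsupp.mem_span_range_iff_exists_finsupp.1 hx
  set x := c.sum fun i a => a • M.e i with hxdef
  let T : Finset (List ℕ) := insert [] (c.support.biUnion fun s => s.tails.toFinset)
  have hT0 : [] ∈ T := Finset.mem_insert_self _ _
  have hT : ∀ a v, a :: v ∈ T → v ∈ T := by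
    intro a v h
    simp only [T, Finset.mem_insert, Finset.mem_biUnion, List.mem_toFinset, List.mem_tails] at h ⊢
    rcases h with h | ⟨s, hs, h⟩
    · simp at h
    · exact Or.inr ⟨s, hs, (List.suffix_cons a v).trans h⟩
  have hTc : ∀ s ∈ c.support, s ∈ T := by
    intro s hs
    simp only [T, Finset.mem_insert, Finset.mem_biUnion, List.mem_toFinset, List.mem_tails]
    exact Or.inr ⟨s, hs, List.suffix_refl s⟩
  choose τ hτ using (exists_pt (Q := Q) (m := m))
  let L : X →L[ℝ] (T → ℝ) := ContinuousLinearMap.pi fun s => M.ev (τ s)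
  refine ⟨_, cof_ker L, fun y hy => ?_⟩
  have hy0 : ∀ s ∈ T, M.ev (τ s) y = 0 := fun s hs => congrFun (show L y = 0 from hy) ⟨s, hs⟩
  set a := ‖x‖ with ha
  set b := ‖y‖ with hb
  have ha0 : 0 ≤ a := norm_nonneg _
  have hb0 : 0 ≤ b := norm_nonneg _
  by_cases hcase : a ^ 2 + b ^ 2 / 4 ≤ b ^ 2
  · have h1 : √(a ^ 2 + b ^ 2 / 4) ≤ b := Real.sqrt_le_iff.2 ⟨hb0, hcase⟩
    have h2 := norm_sub_le (x + y) (x - y)
    rw [show x + y - (x - y) = (2 : ℝ) • y by module, norm_smul] at h2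
    simp only [Real.norm_ofNat] at h2
    linarith
  push Not at hcase
  set R := √(a ^ 2 + b ^ 2 / 4) with hR
  have hR2 : R ^ 2 = a ^ 2 + b ^ 2 / 4 := Real.sq_sqrt (by positivity)
  have hRpos : 0 < R := Real.sqrt_pos.2 (lt_of_le_of_lt (by positivity) hcase)
  have hbR : b ≤ R := Real.le_sqrt_of_sq_le hcase.le
  have haR : a ≤ R := Real.le_sqrt_of_sq_le (by nlinarith)
  have hapos : 0 < a := by
    rcases ha0.eq_or_lt with h | h
    · rw [← h] at hcase; nlinarith
    · exact h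
  set α := a / R with hα
  set β := b / (2 * R) with hβ
  have hα0 : 0 < α := by positivity
  have hβ0 : 0 ≤ β := by positivity
  have hα1 : α ≤ 1 := by rwa [hα, div_le_one hRpos]
  have hβ1 : β ≤ 1 / 2 := by
    rw [hβ, div_le_iff₀ (by positivity)]; linarith
  have hαβ : α ^ 2 + β ^ 2 ≤ 1 := by
    rw [hα, hβ, div_pow, div_pow, mul_pow, hR2]
    rw [← hR2]; field_simp; nlinarith
  have main : ∀ f g : {f // Tst Q m f},
      2 * α * M.ev f x + β * M.ev g y ≤ ‖x + y‖ + ‖x - y‖ := by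
    intro f g
    obtain ⟨h₁, h₂, p1, p2, q1, q2, r1, r2, hd⟩ :=
      exists_mix Q hQ T hT0 hT f.1 g.1 f.2.1 g.2.1 hα0.le hα1 hβ0 hβ1
    let t₁ : {f // Tst Q m f} := ⟨h₁, p1, extra_mix m hT0 hαβ q1 r1 f.2.2 g.2.2⟩
    let t₂ : {f // Tst Q m f} := ⟨h₂, p2, extra_mix m hT0 hαβ q2 r2 f.2.2 g.2.2⟩
    have e1 : M.ev t₁ x = α * M.ev f x := by
      simp only [hxdef, Finsupp.sum, map_sum, map_smul, M.ev_e, smul_eq_mul, Finset.mul_sum]
      exact Finset.sum_congr rfl fun s hs => by simp only [t₁, q1 s (hTc s hs)]; ring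
    have e2 : M.ev t₂ x = α * M.ev f x := by
      simp only [hxdef, Finsupp.sum, map_sum, map_smul, M.ev_e, smul_eq_mul, Finset.mul_sum]
      exact Finset.sum_congr rfl fun s hs => by simp only [t₂, q2 s (hTc s hs)]; ring
    have e3 : M.ev t₁ - M.ev t₂ = β • (M.ev g - ∑ s ∈ T, g.1 s • M.ev (τ s)) := by
      refine M.ext_e fun u => ?_
      simp only [sub_apply, smul_apply, sum_apply, M.ev_e, smul_eq_mul, hτ,
        Finset.sum_ite_eq]
      by_cases hu : u ∈ T
      · simp [t₁, t₂, q1 u hu, q2 u hu, hu]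
      · simp [t₁, t₂, hd u hu, hu]
    have e4 : M.ev t₁ y - M.ev t₂ y = β * M.ev g y := by
      have := congrArg (fun L : X →L[ℝ] ℝ => L y) e3
      simp only [sub_apply, smul_apply, sum_apply, smul_eq_mul] at this
      rw [this, Finset.sum_eq_zero fun s hs => by rw [hy0 s hs, mul_zero], sub_zero]
    have i1 := M.le_norm t₁ (x + y)
    have i2 := M.le_norm t₂ (x - y)
    rw [map_add] at i1
    rw [map_sub] at i2
    linarith
  have step : ∀ g : {f // Tst Q m f}, 2 * α * a + β * M.ev g y ≤ ‖x + y‖ + ‖x - y‖ := by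
    intro g
    have : a ≤ (‖x + y‖ + ‖x - y‖ - β * M.ev g y) / (2 * α) := by
      refine M.norm_le' x _ fun f => ?_
      rw [le_div_iff₀ (by positivity)]
      linarith [main f g]
    rw [le_div_iff₀ (by positivity)] at this
    linarith
  have fin : 2 * α * a + β * b ≤ ‖x + y‖ + ‖x - y‖ := by
    rcases hβ0.eq_or_lt with h | h
    · have := step ⟨0, tst_zero⟩
      rw [← h] at this ⊢
      linarith
    · have : b ≤ (‖x + y‖ + ‖x - y‖ - 2 * α * a) / β := by
        refine M.norm_le' y _ fun g => ?_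
        rw [le_div_iff₀ h]
        linarith [step g]
      rw [le_div_iff₀ h] at this
      linarith
  have : 2 * α * a + β * b = 2 * R := by
    rw [hα, hβ]; field_simp; nlinarith
  linarith

include M in
theorem key (hQ : ∀ a v, Q (a :: v) → Q v) (x : X) {η : ℝ} (hη : 0 < η) :
    ∃ S : Submodule ℝ X, Cof S ∧
      ∀ y ∈ S, 2 * √(‖x‖ ^ 2 + ‖y‖ ^ 2 / 4) - η ≤ ‖x + y‖ + ‖x - y‖ := by
  obtain ⟨x', hx', hd⟩ := Metric.mem_closure_iff.1 (M.dense x) (η / 4) (by positivity)
  obtain ⟨S, hS, h⟩ := M.key_span hQ x' hx'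
  refine ⟨S, hS, fun y hy => ?_⟩
  rw [dist_eq_norm] at hd
  have h1 := h y hy
  have h2 : √(‖x‖ ^ 2 + ‖y‖ ^ 2 / 4) ≤ √(‖x'‖ ^ 2 + ‖y‖ ^ 2 / 4) + η / 4 :=
    sqrt_sq_add_le (norm_nonneg _) (by positivity) (by positivity)
      (by linarith [norm_sub_norm_le x x'])
  have h3 : ‖x' + y‖ ≤ ‖x + y‖ + ‖x - x'‖ := by
    have := norm_sub_le (x + y) (x - x')
    rwa [show x + y - (x - x') = x' + y by abel] at this
  have h4 : ‖x' - y‖ ≤ ‖x - y‖ + ‖x - x'‖ := by
    have := norm_sub_le (x - y) (x - x')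
    rwa [show x - y - (x - x') = x' - y by abel] at this
  linarith

/-- the sum of the coordinate vectors along the root path -/
def pv : List ℕ → X
  | [] => M.e []
  | a :: v => pv v + M.e (a :: v)

theorem ev_pv (f : {f // Tst Q m f}) (v : List ℕ) : M.ev f (M.pv v) = pathPotential f.1 v := by
  induction v with
  | nil => simp [pv, M.ev_e, pathPotential]
  | cons a v ih => simp [pv, M.ev_e, pathPotential, ih]

theorem norm_pv_le {v : List ℕ} (hv : Q v) : ‖M.pv v‖ ≤ 1 :=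
  M.norm_le _ _ zero_le_one fun f => by rw [M.ev_pv]; exact f.2.1 v hv

theorem one_le_norm_e (a : ℕ) (v : List ℕ) : 1 ≤ ‖M.e (a :: v)‖ := by
  have := M.le_norm ⟨_, tst_single (a :: v) (Or.inl (by simp))⟩ (M.e (a :: v))
  simpa [M.ev_e] using this

theorem l2dom (v : List ℕ) (A : Finset ℕ) (c : ℕ → ℝ) :
    ‖∑ n ∈ A, c n • M.e (n :: v)‖ ≤ 1 * √(∑ n ∈ A, c n ^ 2) := by
  refine M.norm_le' _ _ fun f => ?_
  simp only [map_sum, map_smul, M.ev_e, smul_eq_mul, one_mul]
  refine Real.le_sqrt_of_sq_le ?_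
  calc (∑ n ∈ A, c n * f.1 (n :: v)) ^ 2
      ≤ (∑ n ∈ A, c n ^ 2) * ∑ n ∈ A, f.1 (n :: v) ^ 2 := Finset.sum_mul_sq_le_sq_mul_sq _ _ _
    _ ≤ (∑ n ∈ A, c n ^ 2) * 1 := by
        gcongr
        exact extra_sibling m f.2.2 v A
    _ = _ := mul_one _

include M in
theorem separable : TopologicalSpace.SeparableSpace X := by
  have h : TopologicalSpace.IsSeparable (Submodule.span ℝ (Set.range M.e) : Set X) :=
    (Set.countable_range M.e).isSeparable.span
  rw [← TopologicalSpace.isSeparable_univ_iff, ← M.dense.closure_eq]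
  exact h.closure

end TreeModel

/-- trees of height `k` inside isometric copies of models -/
theorem hasTrees_of_models {Y : Type*} [NormedAddCommGroup Y] [NormedSpace ℝ Y]
    (X : ℕ → Type) [∀ k, NormedAddCommGroup (X k)] [∀ k, NormedSpace ℝ (X k)]
    (Q : ℕ → List ℕ → Prop) (m : PotentialModel) (M : ∀ k, TreeModel (X k) (Tst (Q k) m))
    (hQ : ∀ k v, v.length ≤ k → Q k v) (ι : ∀ k, X k →ₗᵢ[ℝ] Y) : HasTrees Y := by
  refine ⟨1, 1, one_pos, fun k => ⟨fun j => {y | ∃ v : List ℕ, v.length = j ∧ y = ι k ((M k).pv v)},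
    ⟨_, [], rfl, rfl⟩, ?_, ?_⟩⟩
  · rintro j hj _ ⟨v, hv, rfl⟩
    rw [LinearIsometry.norm_map]
    exact (M k).norm_pv_le (hQ k v (hv ▸ hj))
  · rintro j - _ ⟨v, hv, rfl⟩ S hS η hη
    obtain ⟨n, y, hy, h⟩ := exists_near_of_l2dom (fun n => ι k ((M k).e (n :: v))) 1
      (fun A c => by
        have := (M k).l2dom v A c
        rw [← (ι k).norm_map, map_sum] at this
        simpa using this) hS hη
    have e : ι k ((M k).pv (n :: v)) - ι k ((M k).pv v) = ι k ((M k).e (n :: v)) := by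
      simp [TreeModel.pv]
    refine ⟨_, ⟨n :: v, by simp [hv], rfl⟩, ?_, y, hy, ?_⟩
    · rw [e, LinearIsometry.norm_map]; exact (M k).one_le_norm_e n v
    · rw [e]; exact h

end Crest.Agent.R125
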