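import Mathlib
import Crest.Agent.R125.Basic
import Crest.Agent.R125.Diamond
import Crest.Agent.R125.TreeModel

/-! `ℓ²`-sums: reflexivity, separability, midpoint convexity. -/

set_option autoImplicit false

namespace Crest.Agent.R125

open Filter Topology

/-- reflexivity -/
def Refl (X : Type*) [NormedAddCommGroup X] [NormedSpace ℝ X] : Prop :=
  Function.Surjective (NormedSpace.inclusionInDoubleDual ℝ X)

theorem Cof.comap {X Y : Type*} [NormedAddCommGroup X] [NormedSpace ℝ X] [NormedAddCommGroup Y]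
    [NormedSpace ℝ Y] {S : Submodule ℝ Y} (hS : Cof S) (L : X →L[ℝ] Y) :
    Cof (S.comap (L : X →ₗ[ℝ] Y)) := by
  refine ⟨hS.1.preimage L.continuous, ?_⟩
  have := hS.2
  have h : LinearMap.ker (S.mkQ.comp (L : X →ₗ[ℝ] Y)) = S.comap (L : X →ₗ[ℝ] Y) := by
    rw [LinearMap.ker_comp]; simp
  rw [← h]
  exact (LinearMap.quotKerEquivRange _).symm.finiteDimensional

theorem cof_finset_inf {X ι : Type*} [NormedAddCommGroup X] [NormedSpace ℝ X] (s : Finset ι)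
    (S : ι → Submodule ℝ X) (hS : ∀ i ∈ s, Cof (S i)) : Cof (s.inf S) :=
  Finset.inf_induction cof_top (fun _ h _ h' => h.inf h') hS

/-- a complete space that embeds isomorphically in a Hilbert space is reflexive -/
theorem refl_of_embedding {X H : Type*} [NormedAddCommGroup X] [NormedSpace ℝ X] [CompleteSpace X]
    [NormedAddCommGroup H] [InnerProductSpace ℝ H] [CompleteSpace H] (T : X →L[ℝ] H)
    (hT : ∀ x, ‖x‖ ≤ ‖T x‖) : Refl X := by
  have hanti : AntilipschitzWith 1 T := T.antilipschitz_of_bound (by simpa using hT)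
  have hcl : IsClosed (Set.range T) := hanti.isClosed_range T.uniformContinuous
  let e := T.equivRange hanti.injective hcl
  have : CompleteSpace (LinearMap.range (T : X →ₗ[ℝ] H)) := hcl.completeSpace_coe
  intro Φ
  let R := LinearMap.range (T : X →ₗ[ℝ] H)
  let Ψ : R →L[ℝ] ℝ := Φ.comp
    (((ContinuousLinearMap.compL ℝ X R ℝ).flip (e : X →L[ℝ] R)).comp (innerSL ℝ))
  refine ⟨e.symm ((InnerProductSpace.toDual ℝ R).symm Ψ), ?_⟩
  ext φ
  rw [NormedSpace.dual_def]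
  let h : R := (InnerProductSpace.toDual ℝ R).symm (φ.comp (e.symm : R →L[ℝ] X))
  have h1 : ∀ r : R, inner ℝ h r = φ (e.symm r) := fun r => InnerProductSpace.toDual_symm_apply
  have h2 : Ψ h = Φ φ := by
    simp only [Ψ, ContinuousLinearMap.comp_apply, ContinuousLinearMap.flip_apply,
      ContinuousLinearMap.compL_apply]
    congr 1
    ext x
    simp [h1]
  rw [← h1, real_inner_comm, InnerProductSpace.toDual_symm_apply, h2]

section

variable {ι : Type*} {X : ι → Type*} [∀ k, NormedAddCommGroup (X k)]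

theorem hasSum_sq (f : lp X 2) : HasSum (fun k => ‖f k‖ ^ 2) (‖f‖ ^ 2) := by
  have := lp.hasSum_norm (p := 2) (by norm_num) f
  simpa using this

theorem sum_sq_le (f : lp X 2) (s : Finset ι) : ∑ k ∈ s, ‖f k‖ ^ 2 ≤ ‖f‖ ^ 2 :=
  sum_le_hasSum s (fun _ _ => sq_nonneg _) (hasSum_sq f)

theorem memℓp_two_of_sum_le {f : ∀ k, X k} {C : ℝ} (h : ∀ s : Finset ι, ∑ k ∈ s, ‖f k‖ ^ 2 ≤ C) :
    Memℓp f 2 := memℓp_gen' (C := C) (by simpa using h)

theorem norm_sum_single_sq [DecidableEq ι] (f : ∀ k, X k) (s : Finset ι) :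
    ‖∑ k ∈ s, lp.single 2 k (f k)‖ ^ 2 = ∑ k ∈ s, ‖f k‖ ^ 2 := by
  have := lp.norm_sum_single (p := 2) (by norm_num) f s
  simpa using this

variable [∀ k, NormedSpace ℝ (X k)]

theorem norm_sum_comp_eval_le (φ : ∀ k, X k →L[ℝ] ℝ) (s : Finset ι) :
    ‖∑ k ∈ s, (φ k).comp (lp.evalCLM ℝ X 2 k)‖ ≤ √(∑ k ∈ s, ‖φ k‖ ^ 2) := by
  refine ContinuousLinearMap.opNorm_le_bound _ (Real.sqrt_nonneg _) fun y => ?_
  rw [sum_apply]
  calc ‖∑ k ∈ s, ((φ k).comp (lp.evalCLM ℝ X 2 k)) y‖ ≤ ∑ k ∈ s, ‖φ k‖ * ‖y k‖ :=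
        norm_sum_le_of_le _ fun k _ => (φ k).le_opNorm _
    _ ≤ √(∑ k ∈ s, ‖φ k‖ ^ 2) * √(∑ k ∈ s, ‖y k‖ ^ 2) := Real.sum_mul_le_sqrt_mul_sqrt _ _ _
    _ ≤ _ := by
        gcongr
        exact Real.sqrt_le_iff.2 ⟨norm_nonneg _, sum_sq_le y s⟩

theorem le_sq_of_le_mul_sqrt {S C : ℝ} (hS : 0 ≤ S) (hC : 0 ≤ C) (h : S ≤ C * √S) : S ≤ C ^ 2 := by
  have h3 : √S ≤ C := by
    by_contra hcon
    push Not at hcon
    have := Real.mul_self_sqrt hS
    nlinarith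
  calc S = √S ^ 2 := (Real.sq_sqrt hS).symm
    _ ≤ _ := by gcongr

theorem refl_lp [∀ k, CompleteSpace (X k)] (hX : ∀ k, Refl (X k)) : Refl (lp X 2) := by
  classical
  intro Φ
  have h1 : ∀ k, ∃ x : X k, ∀ φ : X k →L[ℝ] ℝ, φ x = Φ (φ.comp (lp.evalCLM ℝ X 2 k)) := by
    intro k
    obtain ⟨x, hx⟩ := hX k (Φ.comp
      ((ContinuousLinearMap.compL ℝ (lp X 2) (X k) ℝ).flip (lp.evalCLM ℝ X 2 k)))
    exact ⟨x, fun φ => congrArg (fun G : StrongDual ℝ (StrongDual ℝ (X k)) => G φ) hx⟩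
  choose x hx using h1
  have hmem : Memℓp x 2 := by
    refine memℓp_two_of_sum_le (C := ‖Φ‖ ^ 2) fun s => ?_
    choose g hg1 hg2 using fun k => exists_dual_vector'' ℝ (x k)
    refine le_sq_of_le_mul_sqrt (Finset.sum_nonneg fun _ _ => sq_nonneg _) Φ.opNorm_nonneg ?_
    calc ∑ k ∈ s, ‖x k‖ ^ 2 = Φ (∑ k ∈ s, (‖x k‖ • g k).comp (lp.evalCLM ℝ X 2 k)) := by
          rw [map_sum]
          refine Finset.sum_congr rfl fun k _ => ?_
          rw [← hx, smul_apply, hg2, sq]; rfl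
      _ ≤ ‖Φ‖ * ‖∑ k ∈ s, (‖x k‖ • g k).comp (lp.evalCLM ℝ X 2 k)‖ :=
          (le_abs_self _).trans (Φ.le_opNorm _)
      _ ≤ ‖Φ‖ * √(∑ k ∈ s, ‖‖x k‖ • g k‖ ^ 2) := by
          gcongr; exact norm_sum_comp_eval_le _ s
      _ ≤ ‖Φ‖ * √(∑ k ∈ s, ‖x k‖ ^ 2) := by
          gcongr with k _
          rw [norm_smul, norm_norm]
          exact mul_le_of_le_one_right (norm_nonneg _) (hg1 k)
  refine ⟨⟨x, hmem⟩, ?_⟩
  ext ψ
  rw [NormedSpace.dual_def]
  let ψ' : ∀ k, X k →L[ℝ] ℝ := fun k => ψ.comp (lp.singleContinuousLinearMap ℝ X 2 k)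
  have hb : ∀ s : Finset ι, ∑ k ∈ s, ‖ψ' k‖ ^ 2 ≤ ‖ψ‖ ^ 2 := by
    intro s
    have hu : ∀ k, ∃ u : X k, ‖u‖ ≤ 1 ∧ ψ' k u = ‖ψ' k‖ := by
      intro k
      obtain ⟨G, hG1, hG2⟩ := exists_dual_vector'' ℝ (ψ' k)
      obtain ⟨u, rfl⟩ := hX k G
      exact ⟨u, ((NormedSpace.inclusionInDoubleDualLi ℝ (E := X k)).norm_map u).symm.le.trans hG1,
        hG2⟩
    choose u hu1 hu2 using hu
    refine le_sq_of_le_mul_sqrt (Finset.sum_nonneg fun _ _ => sq_nonneg _) (norm_nonneg _) ?_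
    calc ∑ k ∈ s, ‖ψ' k‖ ^ 2 = ψ (∑ k ∈ s, lp.single 2 k (‖ψ' k‖ • u k)) := by
          rw [map_sum]
          refine Finset.sum_congr rfl fun k _ => ?_
          change _ = ψ' k (‖ψ' k‖ • u k)
          rw [map_smul, hu2, sq]; rfl
      _ ≤ ‖ψ‖ * ‖∑ k ∈ s, lp.single 2 k (‖ψ' k‖ • u k)‖ := (le_abs_self _).trans (ψ.le_opNorm _)
      _ ≤ ‖ψ‖ * √(∑ k ∈ s, ‖ψ' k‖ ^ 2) := by
          gcongr
          refine Real.le_sqrt_of_sq_le ?_
          rw [norm_sum_single_sq]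
          gcongr with k _
          rw [norm_smul, norm_norm]
          exact mul_le_of_le_one_right (norm_nonneg _) (hu1 k)
  have hs : Summable fun k => ‖ψ' k‖ ^ 2 := summable_of_sum_le (fun _ => sq_nonneg _) hb
  have hs2 : Summable fun k => (ψ' k).comp (lp.evalCLM ℝ X 2 k) := by
    rw [summable_iff_vanishing_norm] at hs ⊢
    intro ε hε
    obtain ⟨s, hs⟩ := hs (ε ^ 2) (by positivity)
    refine ⟨s, fun t ht => (norm_sum_comp_eval_le ψ' t).trans_lt ?_⟩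
    rw [Real.sqrt_lt' hε]
    exact (le_abs_self _).trans_lt (hs t ht)
  have heq : ∑' k, (ψ' k).comp (lp.evalCLM ℝ X 2 k) = ψ := by
    ext1 y
    have a1 := (ContinuousLinearMap.apply ℝ ℝ y).hasSum hs2.hasSum
    have a2 := ψ.hasSum (lp.hasSum_single (p := 2) (by norm_num) y)
    exact a1.unique a2
  have a1 := Φ.hasSum hs2.hasSum
  rw [heq] at a1
  have a2 := ψ.hasSum (lp.hasSum_single (p := 2) (by norm_num) (⟨x, hmem⟩ : lp X 2))
  refine a2.unique ?_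
  convert a1 using 1
  ext k
  exact hx k (ψ' k)

theorem separable_lp [Countable ι] [∀ k, TopologicalSpace.SeparableSpace (X k)] :
    TopologicalSpace.SeparableSpace (lp X 2) := by
  classical
  have h : TopologicalSpace.IsSeparable
      (⋃ k, Set.range (lp.singleContinuousLinearMap ℝ X 2 k)) :=
    TopologicalSpace.IsSeparable.iUnion fun k =>
      TopologicalSpace.isSeparable_range (lp.singleContinuousLinearMap ℝ X 2 k).continuous
  rw [← TopologicalSpace.isSeparable_univ_iff]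
  refine (h.span (R := ℝ)).closure.mono fun y _ => ?_
  refine mem_closure_of_tendsto (lp.hasSum_single (p := 2) (by norm_num) y)
    (Eventually.of_forall fun s => ?_)
  exact Submodule.sum_mem _ fun k _ => Submodule.subset_span (Set.mem_iUnion.2 ⟨k, y k, rfl⟩)

theorem midConv_lp (D : ∀ k, Set (X k)) (hD : ∀ k, Dense (D k))
    (h : ∀ k, ∀ x ∈ D k, ∃ S : Submodule ℝ (X k), Cof S ∧
      ∀ y ∈ S, 2 * √(‖x‖ ^ 2 + ‖y‖ ^ 2 / 4) ≤ ‖x + y‖ + ‖x - y‖) : MidConv (lp X 2) := by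
  classical
  intro x η hη
  have h1 := lp.hasSum_single (p := 2) (by norm_num) x
  obtain ⟨s, hs⟩ := (Metric.tendsto_nhds.1 h1 (η / 4) (by positivity)).exists
  have h2 : ∀ k, ∃ x' ∈ D k, dist (x k) x' < η / 4 / (s.card + 1) := fun k =>
    Metric.mem_closure_iff.1 (hD k (x k)) _ (by positivity)
  choose x' hx'D hx' using h2
  choose S hS hS' using fun k => h k (x' k) (hx'D k)
  set w : lp X 2 := ∑ k ∈ s, lp.single 2 k (x' k) with hw
  have hwx : ‖x - w‖ ≤ η / 2 := by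
    have e : x - w = (x - ∑ k ∈ s, lp.single 2 k (x k)) + ∑ k ∈ s, lp.single 2 k (x k - x' k) := by
      simp only [hw, lp.single_sub, Finset.sum_sub_distrib]; abel
    have e1 : ‖∑ k ∈ s, lp.single (E := X) 2 k (x k - x' k)‖ ≤ η / 4 := by
      calc _ ≤ ∑ k ∈ s, η / 4 / (s.card + 1) := norm_sum_le_of_le _ fun k _ => by
            rw [lp.norm_single (by norm_num), ← dist_eq_norm]; exact (hx' k).le
        _ = η / 4 * (s.card / (s.card + 1)) := by simp; ring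
        _ ≤ η / 4 * 1 := by
            gcongr
            rw [div_le_one (by positivity)]; linarith
        _ = _ := mul_one _
    rw [dist_comm, dist_eq_norm] at hs
    rw [e]
    linarith [norm_add_le (x - ∑ k ∈ s, lp.single 2 k (x k))
      (∑ k ∈ s, lp.single (E := X) 2 k (x k - x' k))]
  have hwk : ∀ k, w k = if k ∈ s then x' k else 0 := by
    intro k
    simp only [hw, lp.coeFn_single, lp.coeFn_sum, Finset.sum_apply, Finset.sum_pi_single]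
  refine ⟨_, cof_finset_inf s (fun k => (S k).comap (lp.evalCLM ℝ X 2 k : lp X 2 →ₗ[ℝ] X k))
    (fun k _ => (hS k).comap _), fun y hy => ?_⟩
  have hy' : ∀ k ∈ s, y k ∈ S k := fun k hk => (Finset.inf_le (f := fun k => (S k).comap
    (lp.evalCLM ℝ X 2 k : lp X 2 →ₗ[ℝ] X k)) hk) hy
  have h3 : ∀ k, 2 * ‖w k‖ ^ 2 + ‖y k‖ ^ 2 / 2 ≤ ‖(w + y) k‖ ^ 2 + ‖(w - y) k‖ ^ 2 := by
    intro k
    simp only [lp.coeFn_add, lp.coeFn_sub, Pi.add_apply, Pi.sub_apply, hwk]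
    split_ifs with hk
    · have a1 := hS' k (y k) (hy' k hk)
      have a2 : √(‖x' k‖ ^ 2 + ‖y k‖ ^ 2 / 4) ^ 2 = ‖x' k‖ ^ 2 + ‖y k‖ ^ 2 / 4 :=
        Real.sq_sqrt (by positivity)
      have a3 : (2 * √(‖x' k‖ ^ 2 + ‖y k‖ ^ 2 / 4)) ^ 2 ≤ (‖x' k + y k‖ + ‖x' k - y k‖) ^ 2 := by
        gcongr
      nlinarith [sq_nonneg (‖x' k + y k‖ - ‖x' k - y k‖)]
    · simp only [norm_zero, zero_add, zero_sub, norm_neg]
      nlinarith [sq_nonneg ‖y k‖]
  have h4 : 2 * ‖w‖ ^ 2 + ‖y‖ ^ 2 / 2 ≤ ‖w + y‖ ^ 2 + ‖w - y‖ ^ 2 :=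
    hasSum_le h3 (((hasSum_sq w).mul_left 2).add ((hasSum_sq y).div_const 2))
      ((hasSum_sq (w + y)).add (hasSum_sq (w - y)))
  have h5 : ‖w + y‖ ≤ max ‖x + y‖ ‖x - y‖ + η / 2 := by
    have := norm_sub_le (x + y) (x - w)
    rw [show x + y - (x - w) = w + y by abel] at this
    linarith [le_max_left ‖x + y‖ ‖x - y‖]
  have h6 : ‖w - y‖ ≤ max ‖x + y‖ ‖x - y‖ + η / 2 := by
    have := norm_sub_le (x - y) (x - w)
    rw [show x - y - (x - w) = w - y by abel] at this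
    linarith [le_max_right ‖x + y‖ ‖x - y‖]
  have h7 : √(‖w‖ ^ 2 + ‖y‖ ^ 2 / 4) ≤ max ‖x + y‖ ‖x - y‖ + η / 2 := by
    have a0 : 0 ≤ max ‖x + y‖ ‖x - y‖ + η / 2 := (norm_nonneg _).trans h5
    have a1 : ‖w + y‖ ^ 2 ≤ (max ‖x + y‖ ‖x - y‖ + η / 2) ^ 2 := by gcongr
    have a2 : ‖w - y‖ ^ 2 ≤ (max ‖x + y‖ ‖x - y‖ + η / 2) ^ 2 := by gcongr
    exact Real.sqrt_le_iff.2 ⟨a0, by linarith⟩
  have h8 : √(‖x‖ ^ 2 + ‖y‖ ^ 2 / 4) ≤ √(‖w‖ ^ 2 + ‖y‖ ^ 2 / 4) + η / 2 :=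
    sqrt_sq_add_le (norm_nonneg _) (by positivity) (by positivity)
      (by linarith [norm_sub_norm_le x w])
  linarith

end

end Crest.Agent.R125
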