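import Mathlib
import Crest.Agent.R125.L2Sum

/-! The global model with potentials bounded up to height `k`, and the `ℓ²`-sum of these models. -/

set_option autoImplicit false

namespace Crest.Agent.R125

open Crest.AnalysisR Crest.AnalysisR.TreePotential

/-- tests of the height-`k` global model -/
abbrev HTst (k : ℕ) : (List ℕ → ℝ) → Prop := Tst (fun s => s.length ≤ k) .global

/-- coordinate vectors of the height-`k` global model -/
noncomputable def hCoord (k : ℕ) (s : List ℕ) : lp (fun _ : {f // HTst k f} => ℝ) ⊤ :=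
  ⟨fun f => f.1 s, memℓp_infty ⟨1, by
    rintro _ ⟨f, rfl⟩
    have h := f.2.2 {s}
    simp only [Finset.sum_singleton] at h
    simpa using (sq_le_one_iff_abs_le_one _).1 h⟩⟩

/-- the height-`k` global model -/
abbrev HSp (k : ℕ) : Type := (Submodule.span ℝ (Set.range (hCoord k))).topologicalClosure

instance (k : ℕ) : CompleteSpace (HSp k) :=
  (Submodule.isClosed_topologicalClosure _).completeSpace_coe

/-- the model structure -/
noncomputable def hModel (k : ℕ) : TreeModel (HSp k) (HTst k) :=
  mkModel (HTst k) (hCoord k) (fun _ _ => rfl)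

/-- all vertices on the root path -/
def pathAll : List ℕ → Finset (List ℕ)
  | [] => {[]}
  | a :: v => insert (a :: v) (pathAll v)

theorem length_le_of_mem_pathAll : ∀ (v u : List ℕ), u ∈ pathAll v → u.length ≤ v.length
  | [], u, h => by simp only [pathAll, Finset.mem_singleton] at h; simp [h]
  | a :: v, u, h => by
    simp only [pathAll, Finset.mem_insert] at h
    rcases h with rfl | h
    · exact le_rfl
    · exact (length_le_of_mem_pathAll v u h).trans (by simp)

theorem cons_notMem_pathAll (a : ℕ) (v : List ℕ) : a :: v ∉ pathAll v := fun h => by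
  simpa using length_le_of_mem_pathAll v _ h

theorem card_pathAll (v : List ℕ) : (pathAll v).card = v.length + 1 := by
  induction v with
  | nil => rfl
  | cons a v ih => simp only [pathAll]; rw [Finset.card_insert_of_notMem (cons_notMem_pathAll a v), ih]; rfl

theorem pathPotential_eq_sum (f : List ℕ → ℝ) (v : List ℕ) :
    pathPotential f v = ∑ u ∈ pathAll v, f u := by
  induction v with
  | nil => simp [pathPotential, pathAll]
  | cons a v ih =>
    simp only [pathPotential, pathAll]
    rw [Finset.sum_insert (cons_notMem_pathAll a v), ih, add_comm]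

theorem hTst_of_small (k : ℕ) (f : List ℕ → ℝ)
    (h : ∀ A : Finset (List ℕ), ∑ u ∈ A, f u ^ 2 ≤ 1 / (k + 1)) : HTst k f := by
  have hk : (0 : ℝ) < k + 1 := by positivity
  refine ⟨fun s hs => ?_, fun A => (h A).trans ?_⟩
  · rw [← sq_le_one_iff_abs_le_one, pathPotential_eq_sum]
    calc (∑ u ∈ pathAll s, f u) ^ 2 ≤ (pathAll s).card * ∑ u ∈ pathAll s, f u ^ 2 :=
          sq_sum_le_card_mul_sum_sq
      _ ≤ (k + 1) * (1 / (k + 1)) := by
          gcongr
          · rw [card_pathAll]; exact_mod_cast Nat.succ_le_succ hs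
          · exact h _
      _ = 1 := by field_simp
  · rw [div_le_one hk]; linarith [Nat.cast_nonneg (α := ℝ) k]

theorem refl_of_model {X : Type} [NormedAddCommGroup X] [NormedSpace ℝ X] [CompleteSpace X] (k : ℕ)
    (M : TreeModel X (HTst k)) : Refl X := by
  classical
  let τ : List ℕ → {f // HTst k f} := fun s => ⟨_, TreeModel.tst_single s (Or.inr (by simp))⟩
  have hτ : ∀ s u, M.ev (τ s) (M.e u) = if u = s then 1 else 0 := by
    intro s u; simp [M.ev_e, τ, Pi.single_apply]
  have hk : (0 : ℝ) < k + 1 := by positivity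
  have hb : ∀ (x : X) (A : Finset (List ℕ)),
      ∑ s ∈ A, ‖M.ev (τ s) x‖ ^ 2 ≤ (√(k + 1) * ‖x‖) ^ 2 := by
    intro x A
    simp only [Real.norm_eq_abs, sq_abs]
    set N := ∑ s ∈ A, M.ev (τ s) x ^ 2 with hN
    have hN0 : 0 ≤ N := Finset.sum_nonneg fun _ _ => sq_nonneg _
    rcases hN0.eq_or_lt with h0 | hpos
    · rw [← h0]; positivity
    set r : ℝ := (√(k + 1) * √N)⁻¹ with hr
    have hrpos : 0 < r := by positivity
    let f : List ℕ → ℝ := fun u => if u ∈ A then r * M.ev (τ u) x else 0
    have hf : HTst k f := by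
      refine hTst_of_small k f fun B => ?_
      calc ∑ u ∈ B, f u ^ 2 = ∑ u ∈ B ∩ A, (r * M.ev (τ u) x) ^ 2 := by
            rw [← Finset.sum_ite_mem]
            refine Finset.sum_congr rfl fun u _ => ?_
            simp only [f]; split_ifs <;> simp
        _ ≤ ∑ u ∈ A, (r * M.ev (τ u) x) ^ 2 :=
            Finset.sum_le_sum_of_subset_of_nonneg Finset.inter_subset_right
              fun _ _ _ => sq_nonneg _
        _ = r ^ 2 * N := by simp only [mul_pow, hN, Finset.mul_sum]
        _ = 1 / (k + 1) := by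
            rw [hr, inv_pow, mul_pow, Real.sq_sqrt hk.le, Real.sq_sqrt hN0]; field_simp
    have e1 : M.ev ⟨f, hf⟩ = ∑ s ∈ A, f s • M.ev (τ s) := by
      refine M.ext_e fun u => ?_
      simp only [sum_apply, smul_apply, hτ, smul_eq_mul, mul_ite, mul_one, mul_zero,
        Finset.sum_ite_eq, M.ev_e]
      by_cases hu : u ∈ A <;> simp [f, hu]
    have e2 : M.ev ⟨f, hf⟩ x = r * N := by
      rw [e1, sum_apply, hN, Finset.mul_sum]
      refine Finset.sum_congr rfl fun s hs => ?_
      simp only [smul_apply, f, hs, if_true, smul_eq_mul]; ring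
    have h1 := M.le_norm ⟨f, hf⟩ x
    rw [e2, hr, inv_mul_le_iff₀ (by positivity)] at h1
    exact le_sq_of_le_mul_sqrt hN0 (by positivity) (by linarith)
  let T₀ : X →ₗ[ℝ] lp (fun _ : List ℕ => ℝ) 2 :=
    { toFun := fun x => ⟨fun s => M.ev (τ s) x, memℓp_two_of_sum_le (hb x)⟩
      map_add' := fun x y => by ext s; simp
      map_smul' := fun c x => by ext s; simp }
  let T : X →L[ℝ] lp (fun _ : List ℕ => ℝ) 2 := T₀.mkContinuous (√(k + 1)) fun x => by
    have h1 : ‖T₀ x‖ ^ 2 ≤ (√(k + 1) * ‖x‖) ^ 2 := hasSum_le_of_sum_le (hasSum_sq (T₀ x)) (hb x)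
    exact le_of_sq_le_sq h1 (by positivity)
  refine refl_of_embedding T fun x => M.norm_le' x _ fun f => ?_
  have hf : ∀ A : Finset (List ℕ), ∑ u ∈ A, ‖f.1 u‖ ^ 2 ≤ 1 := fun A => by
    simpa using f.2.2 A
  let g : lp (fun _ : List ℕ => ℝ) 2 := ⟨f.1, memℓp_two_of_sum_le hf⟩
  have hg : ‖g‖ ≤ 1 := by
    have h1 : ‖g‖ ^ 2 ≤ 1 ^ 2 := hasSum_le_of_sum_le (hasSum_sq g) (by rw [one_pow]; exact hf)
    exact le_of_sq_le_sq h1 zero_le_one
  have e1 : M.ev f = (innerSL ℝ g).comp T := by
    refine M.ext_e fun u => ?_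
    have : T (M.e u) = lp.single 2 u 1 := by
      ext s
      change M.ev (τ s) (M.e u) = _
      rw [hτ, lp.single_apply, Pi.single_apply]
      simp [eq_comm]
    rw [ContinuousLinearMap.comp_apply, this, innerSL_apply_apply, lp.inner_single_right, M.ev_e]
    simp [g]
  rw [e1, ContinuousLinearMap.comp_apply, innerSL_apply_apply]
  calc inner ℝ g (T x) ≤ ‖g‖ * ‖T x‖ := real_inner_le_norm _ _
    _ ≤ 1 * ‖T x‖ := by gcongr
    _ = _ := one_mul _

/-- the `ℓ²`-sum of the height-`k` models -/
abbrev BigSp : Type := lp HSp 2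

theorem bigSp_refl : Refl BigSp := refl_lp fun k => refl_of_model k (hModel k)

theorem bigSp_separable : TopologicalSpace.SeparableSpace BigSp := by
  have := fun k => (hModel k).separable
  exact separable_lp

theorem bigSp_midConv : MidConv BigSp :=
  midConv_lp _ (fun k => (hModel k).dense) fun k x hx =>
    (hModel k).key_span (fun _ _ h => (Nat.le_succ _).trans h) x hx

theorem bigSp_hasTrees : HasTrees BigSp :=
  hasTrees_of_models HSp (fun k s => s.length ≤ k) .global hModel (fun _ _ h => h)
    fun k => { lp.lsingle 2 k with norm_map' := fun x => lp.norm_single (by norm_num) k x }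

end Crest.Agent.R125
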