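import Mathlib
import Crest.Prelude.Def_DaugavetL1
import Crest.Agent.R125.Basic

/-! Lower bound for the averaged midpoint quantity in measure-compact subspaces of `L¹`. -/

set_option autoImplicit false

namespace Crest.Agent.R125

open Crest.AnalysisR Filter Topology Crest.AnalysisR.L1Subspace MeasureTheory

variable {Ω : Type} [MeasurableSpace Ω] {P : Measure Ω}

theorem exists_mul_functional (σ : Ω → ℝ) (hσ : Measurable σ) (hb : ∀ z, ‖σ z‖ ≤ 1) :
    ∃ φ : Lp ℝ 1 P →L[ℝ] ℝ, ∀ y : Lp ℝ 1 P, φ y = ∫ z, σ z * y z ∂P := by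
  have hint : ∀ y : Lp ℝ 1 P, Integrable (fun z => σ z * y z) P := fun y =>
    (L1.integrable_coeFn y).bdd_mul hσ.aestronglyMeasurable (Eventually.of_forall hb)
  let l : Lp ℝ 1 P →ₗ[ℝ] ℝ :=
    { toFun := fun y => ∫ z, σ z * y z ∂P
      map_add' := fun y y' => by
        rw [← integral_add (hint y) (hint y')]
        refine integral_congr_ae ?_
        filter_upwards [Lp.coeFn_add y y'] with z hz
        rw [hz, Pi.add_apply, mul_add]
      map_smul' := fun c y => by
        simp only [RingHom.id_apply, smul_eq_mul]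
        rw [← integral_const_mul]
        refine integral_congr_ae ?_
        filter_upwards [Lp.coeFn_smul c y] with z hz
        rw [hz, Pi.smul_apply, smul_eq_mul]; ring }
  refine ⟨l.mkContinuous 1 fun y => ?_, fun y => rfl⟩
  rw [one_mul, L1.norm_eq_integral_norm]
  refine (norm_integral_le_integral_norm _).trans ?_
  refine integral_mono (hint y).norm (L1.integrable_coeFn y).norm fun z => ?_
  simp only [norm_mul]
  calc ‖σ z‖ * ‖y z‖ ≤ 1 * ‖y z‖ := by gcongr; exact hb z
    _ = _ := one_mul _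

theorem exists_abscont (x : Lp ℝ 1 P) {η : ℝ} (hη : 0 < η) :
    ∃ δ : ℝ, 0 < δ ∧ ∀ A : Set Ω, P A < ENNReal.ofReal δ → ∫ z in A, |x z| ∂P < η := by
  have h := (L1.integrable_coeFn x).abs.tendsto_setIntegral_nhds_zero
    (l := comap (fun A : Set Ω => P A) (𝓝 0)) (s := id) tendsto_comap
  have h1 := h.eventually (gt_mem_nhds hη)
  rw [eventually_comap] at h1
  obtain ⟨ε, hε, h2⟩ := ENNReal.nhds_zero_basis.eventually_iff.1 h1
  obtain ⟨r, -, hr1, hr2⟩ := ENNReal.lt_iff_exists_real_btwn.1 hε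
  refine ⟨r, ENNReal.ofReal_pos.1 hr1, fun A hA => ?_⟩
  exact h2 (hA.trans hr2) A rfl

theorem measureDist_lt [IsProbabilityMeasure P] (f g : Lp ℝ 1 P) {ε : ℝ}
    (h : measureDist P f g < ε) :
    ∃ a : ℝ, 0 < a ∧ a < ε ∧ P {z | a < |f z - g z|} < ENNReal.ofReal a := by
  obtain ⟨a, ha, hlt⟩ := exists_lt_of_csInf_lt ⟨2, by
    refine ⟨by norm_num, prob_le_one.trans_lt ?_⟩
    simp⟩ h
  exact ⟨a, ha.1, hlt, ha.2⟩

theorem avg_lower [IsProbabilityMeasure P] (x y g : Lp ℝ 1 P) (hx : ‖x‖ = 1) (hy : ‖y‖ = 1)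
    {t a : ℝ} (ht : 0 < t) (ha : 0 < a)
    (hσ : ∫ z, (if 0 ≤ g z then (1 : ℝ) else -1) * y z ∂P = 0) :
    1 - ∫ z in {z | a < |y z - g z|}, |x z| ∂P + t * (1 / 2 - a) ≤
      (‖x + t • y‖ + ‖x - t • y‖) / 2 := by
  set A := {z | a < |y z - g z|} with hA
  have hym := (Lp.stronglyMeasurable y).measurable
  have hgm := (Lp.stronglyMeasurable g).measurable
  have hAm : MeasurableSet A := measurableSet_lt measurable_const (hym.sub hgm).abs
  have hσm : Measurable fun z => if 0 ≤ g z then (1 : ℝ) else -1 :=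
    Measurable.ite (measurableSet_le measurable_const hgm) measurable_const measurable_const
  have hxi := L1.integrable_coeFn x
  have hyi := L1.integrable_coeFn y
  have hσi : Integrable (fun z => (if 0 ≤ g z then (1 : ℝ) else -1) * y z) P :=
    hyi.bdd_mul (c := 1) hσm.aestronglyMeasurable
      (Eventually.of_forall fun z => by split_ifs <;> simp)
  have hx' : ∫ z, |x z| ∂P = 1 := by rw [← hx, L1.norm_eq_integral_norm]; rfl
  have hy' : ∫ z, |y z| ∂P = 1 := by rw [← hy, L1.norm_eq_integral_norm]; rfl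
  have hp : ‖x + t • y‖ = ∫ z, |x z + t * y z| ∂P := by
    rw [L1.norm_eq_integral_norm]
    refine integral_congr_ae ?_
    filter_upwards [Lp.coeFn_add x (t • y), Lp.coeFn_smul t y] with z h1 h2
    rw [h1, Pi.add_apply, h2]; rfl
  have hm : ‖x - t • y‖ = ∫ z, |x z - t * y z| ∂P := by
    rw [L1.norm_eq_integral_norm]
    refine integral_congr_ae ?_
    filter_upwards [Lp.coeFn_sub x (t • y), Lp.coeFn_smul t y] with z h1 h2
    rw [h1, Pi.sub_apply, h2]; rfl
  have hpi : Integrable (fun z => |x z + t * y z|) P := (hxi.add (hyi.const_mul t)).abs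
  have hmi : Integrable (fun z => |x z - t * y z|) P := (hxi.sub (hyi.const_mul t)).abs
  have hIi : Integrable (A.indicator fun z => |x z|) P := hxi.abs.indicator hAm
  have hL : Integrable (fun z => (|x z| - A.indicator (fun z => |x z|) z) +
      t * ((|y z| - (if 0 ≤ g z then (1 : ℝ) else -1) * y z) / 2 - a)) P :=
    (hxi.abs.sub hIi).add ((((hyi.abs.sub hσi).div_const 2).sub (integrable_const a)).const_mul t)
  have key : ∫ z, ((|x z| - A.indicator (fun z => |x z|) z) +
      t * ((|y z| - (if 0 ≤ g z then (1 : ℝ) else -1) * y z) / 2 - a)) ∂P ≤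
      ∫ z, (|x z + t * y z| + |x z - t * y z|) / 2 ∂P := by
    refine integral_mono hL ((hpi.add hmi).div_const 2) fun z => ?_
    have e1 : 2 * |x z| ≤ |x z + t * y z| + |x z - t * y z| := by
      have := abs_add_le (x z + t * y z) (x z - t * y z)
      rw [show x z + t * y z + (x z - t * y z) = 2 * x z by ring, abs_mul] at this
      simpa using this
    have e2 : 2 * (t * |y z|) ≤ |x z + t * y z| + |x z - t * y z| := by
      have := abs_sub (x z + t * y z) (x z - t * y z)
      rw [show x z + t * y z - (x z - t * y z) = 2 * (t * y z) by ring, abs_mul, abs_mul,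
        abs_of_pos ht] at this
      simpa using this
    by_cases hz : z ∈ A
    · simp only [Set.indicator_of_mem hz, sub_self, zero_add]
      have : (|y z| - (if 0 ≤ g z then (1 : ℝ) else -1) * y z) / 2 - a ≤ |y z| := by
        split_ifs <;> linarith [le_abs_self (y z), neg_abs_le (y z)]
      nlinarith
    · simp only [Set.indicator_of_notMem hz, sub_zero]
      have h1 : |y z - g z| ≤ a := not_lt.1 hz
      have : (|y z| - (if 0 ≤ g z then (1 : ℝ) else -1) * y z) / 2 - a ≤ 0 := by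
        rw [abs_le] at h1
        split_ifs with h0
        · rcases abs_cases (y z) with h | h <;> linarith [h.1, h.2]
        · push Not at h0
          rcases abs_cases (y z) with h | h <;> linarith [h.1, h.2]
      nlinarith
  have i1 : Integrable (fun z => |x z| - A.indicator (fun z => |x z|) z) P := hxi.abs.sub hIi
  have i2 : Integrable (fun z => |y z| - (if 0 ≤ g z then (1 : ℝ) else -1) * y z) P :=
    hyi.abs.sub hσi
  have i3 : Integrable (fun z => (|y z| - (if 0 ≤ g z then (1 : ℝ) else -1) * y z) / 2) P :=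
    i2.div_const 2
  have i4 : Integrable (fun z => (|y z| - (if 0 ≤ g z then (1 : ℝ) else -1) * y z) / 2 - a) P :=
    i3.sub (integrable_const a)
  rw [integral_add i1 (i4.const_mul t), integral_sub hxi.abs hIi, integral_const_mul,
    integral_sub i3 (integrable_const a), integral_div,
    integral_sub hyi.abs hσi, hσ, hx', hy', integral_indicator hAm, integral_div,
    integral_add hpi hmi, ← hp, ← hm] at key
  simpa using key

theorem exists_cof_avg [IsProbabilityMeasure P] (E : Submodule ℝ (Lp ℝ 1 P))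
    (htb : UnitBallTotallyBoundedInMeasure P E) (x : E) (hx : ‖x‖ = 1) {t η : ℝ} (ht : 0 < t)
    (hη : 0 < η) : ∃ S : Submodule ℝ E, Cof S ∧ ∀ y ∈ S, ‖y‖ = 1 →
      t / 2 - η ≤ (‖x + t • y‖ + ‖x - t • y‖) / 2 - 1 := by
  obtain ⟨δ, hδ, hac⟩ := exists_abscont (x : Lp ℝ 1 P) (η := η / 2) (by positivity)
  obtain ⟨s, -, hs⟩ := htb (min δ (η / 2 / t)) (lt_min hδ (by positivity))
  have hφ : ∀ g : Lp ℝ 1 P, ∃ φ : Lp ℝ 1 P →L[ℝ] ℝ,
      ∀ y : Lp ℝ 1 P, φ y = ∫ z, (if 0 ≤ g z then (1 : ℝ) else -1) * y z ∂P := fun g =>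
    exists_mul_functional _ (Measurable.ite (measurableSet_le measurable_const
      (Lp.stronglyMeasurable g).measurable) measurable_const measurable_const)
      (fun z => by split_ifs <;> simp)
  choose φ hφ using hφ
  let L : E →L[ℝ] (s → ℝ) := ContinuousLinearMap.pi fun g => (φ g).comp E.subtypeL
  refine ⟨_, cof_ker L, fun y hy hy1 => ?_⟩
  obtain ⟨g, hg, hd⟩ := hs y y.2 hy1.le
  obtain ⟨a, ha, haε, hP⟩ := measureDist_lt _ _ hd
  have h0 : ∫ z, (if 0 ≤ g z then (1 : ℝ) else -1) * (y : Lp ℝ 1 P) z ∂P = 0 := by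
    rw [← hφ]
    have : L y = 0 := hy
    exact congrFun this ⟨g, hg⟩
  have h1 := avg_lower (x : Lp ℝ 1 P) y g hx hy1 ht ha h0
  have h2 := hac _ (hP.trans_le (ENNReal.ofReal_le_ofReal (haε.le.trans (min_le_left _ _))))
  have h3 : t * a ≤ η / 2 := by
    have : a ≤ η / 2 / t := haε.le.trans (min_le_right _ _)
    rwa [le_div_iff₀ ht, mul_comm] at this
  have e1 : ‖x + t • y‖ = ‖(x : Lp ℝ 1 P) + t • (y : Lp ℝ 1 P)‖ := rfl
  have e2 : ‖x - t • y‖ = ‖(x : Lp ℝ 1 P) - t • (y : Lp ℝ 1 P)‖ := rfl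
  rw [e1, e2]
  nlinarith

end Crest.Agent.R125
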