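import Mathlib
import Crest.Prelude.Def_TreeProducts
import Crest.Agent.R125.Basic

/-! Path products along the countably branching tree form bounded weakly null trees in `L¹`. -/

set_option autoImplicit false

namespace Crest.Agent.R125

open Crest.AnalysisR Filter Topology MeasureTheory ProbabilityTheory Crest.AnalysisR.TreeProduct

/-- the non-root vertices on the root path -/
def pathSet : List ℕ → Finset (List ℕ)
  | [] => ∅
  | a :: v => insert (a :: v) (pathSet v)

theorem length_le_of_mem_pathSet : ∀ (v u : List ℕ), u ∈ pathSet v → u.length ≤ v.length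
  | [], u, h => by simp [pathSet] at h
  | a :: v, u, h => by
    simp only [pathSet, Finset.mem_insert] at h
    rcases h with rfl | h
    · exact le_rfl
    · exact (length_le_of_mem_pathSet v u h).trans (by simp)

theorem cons_notMem_pathSet (a : ℕ) (v : List ℕ) : a :: v ∉ pathSet v := fun h => by
  simpa using length_le_of_mem_pathSet v _ h

variable {Ω : Type} [MeasurableSpace Ω] {μ : Measure Ω} {ν : Measure ℝ} {W : List ℕ → Ω → ℝ}

omit [MeasurableSpace Ω] in
theorem pathProduct_eq (W : List ℕ → Ω → ℝ) (v : List ℕ) (z : Ω) :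
    pathProduct W v z = ∏ u ∈ pathSet v, W u z := by
  induction v with
  | nil => simp [pathProduct, pathSet]
  | cons a v ih =>
    simp only [pathProduct, pathSet]
    rw [Finset.prod_insert (cons_notMem_pathSet a v), ih, mul_comm]

theorem measurable_pathProduct (hW : IsRealization ν μ W) (v : List ℕ) :
    Measurable (pathProduct W v) := by
  induction v with
  | nil => exact measurable_const
  | cons a v ih => exact ih.mul (hW.1 _)

theorem indep_path_sum (hW : IsRealization ν μ W) (v : List ℕ) (A : Finset ℕ) (c : ℕ → ℝ) :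
    IndepFun (pathProduct W v) (fun z => ∑ n ∈ A, c n * (W (n :: v) z - 1)) μ := by
  let e : ℕ ↪ List ℕ := ⟨fun n => n :: v, fun a b h => by simpa using h⟩
  have hd : Disjoint (pathSet v) (A.map e) := by
    rw [Finset.disjoint_right]
    intro u hu
    obtain ⟨n, -, rfl⟩ := Finset.mem_map.1 hu
    exact cons_notMem_pathSet n v
  have h := hW.2.1.indepFun_finset (pathSet v) (A.map e) hd hW.1
  have h2 := h.comp (φ := fun x : pathSet v → ℝ => ∏ i, x i)
    (ψ := fun x : (A.map e) → ℝ => ∑ i : (A.map e), c (i : List ℕ).headI * (x i - 1))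
    (by fun_prop) (by fun_prop)
  convert h2 using 1
  · ext z
    simp only [Function.comp_apply]
    rw [pathProduct_eq, Finset.prod_coe_sort (pathSet v) (fun u => W u z)]
  · ext z
    simp only [Function.comp_apply]
    rw [Finset.sum_coe_sort (A.map e) (fun u => c u.headI * (W u z - 1)), Finset.sum_map]
    simp [e]

theorem integral_comp_W (hW : IsRealization ν μ W) (a : ℕ) (v : List ℕ) (g : ℝ → ℝ)
    (hg : Measurable g) : ∫ z, g (W (a :: v) z) ∂μ = ∫ x, g x ∂ν := by
  rw [← hW.2.2 (a :: v) (by simp), integral_map (hW.1 _).aemeasurable hg.aestronglyMeasurable]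

theorem memLp_W (hW : IsRealization ν μ W) (hm2 : Integrable (fun x : ℝ => x ^ 2) ν)
    (a : ℕ) (v : List ℕ) : MemLp (W (a :: v)) 2 μ := by
  have h : MemLp id 2 ν := (memLp_two_iff_integrable_sq (by fun_prop)).2 hm2
  rw [← hW.2.2 (a :: v) (by simp)] at h
  exact (memLp_map_measure_iff (by fun_prop) (hW.1 _).aemeasurable).1 h

theorem path_integrable [IsProbabilityMeasure μ] [IsProbabilityMeasure ν]
    (hW : IsRealization ν μ W) (hpos : ν (Set.Ioi 0) = 1) (hmean : ∫ x, x ∂ν = 1)
    (hm2 : Integrable (fun x : ℝ => x ^ 2) ν) (v : List ℕ) :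
    Integrable (pathProduct W v) μ ∧ ∫ z, |pathProduct W v z| ∂μ = 1 := by
  have habs : ∫ x, |x| ∂ν = 1 := by
    rw [← hmean]
    refine integral_congr_ae ?_
    have : ∀ᵐ x ∂ν, x ∈ Set.Ioi (0 : ℝ) := by
      rw [← prob_compl_eq_zero_iff measurableSet_Ioi] at hpos
      exact hpos
    filter_upwards [this] with x hx
    exact abs_of_pos hx
  induction v with
  | nil => exact ⟨integrable_const _, by simp [pathProduct]⟩
  | cons a v ih =>
    have hi : IndepFun (pathProduct W v) (W (a :: v)) μ := by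
      have := hW.2.1.indepFun_finsetProd_of_notMem hW.1 (cons_notMem_pathSet a v)
      convert this using 1
      ext z
      rw [pathProduct_eq, Finset.prod_apply]
    refine ⟨hi.integrable_mul ih.1 ((memLp_W hW hm2 a v).integrable (by norm_num)), ?_⟩
    simp only [pathProduct, abs_mul]
    rw [hi.integral_fun_comp_mul_comp (f := fun x : ℝ => |x|) (g := fun x : ℝ => |x|)
      (measurable_pathProduct hW v).aemeasurable (hW.1 _).aemeasurable (by fun_prop) (by fun_prop),
      ih.2, integral_comp_W hW a v (fun x => |x|) (by fun_prop), habs, one_mul]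

theorem integral_abs_sum_le [IsProbabilityMeasure μ] [IsProbabilityMeasure ν]
    (hW : IsRealization ν μ W) (hmean : ∫ x, x ∂ν = 1)
    (hm2 : Integrable (fun x : ℝ => x ^ 2) ν) (v : List ℕ) (A : Finset ℕ) (c : ℕ → ℝ) :
    ∫ z, |∑ n ∈ A, c n * (W (n :: v) z - 1)| ∂μ ≤
      √(∫ x, (x - 1) ^ 2 ∂ν) * √(∑ n ∈ A, c n ^ 2) := by
  set Y : ℕ → Ω → ℝ := fun n z => c n * (W (n :: v) z - 1) with hY
  have hYm : ∀ n, MemLp (Y n) 2 μ := fun n =>
    ((memLp_W hW hm2 n v).sub (memLp_const 1)).const_mul (c n)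
  have hmean' : ∀ n, ∫ z, (W (n :: v) z - 1) ∂μ = 0 := by
    intro n
    rw [integral_sub ((memLp_W hW hm2 n v).integrable (by norm_num)) (integrable_const _),
      integral_comp_W hW n v (fun x => x) (by fun_prop), hmean]
    simp
  have hvar : ∀ n, variance (Y n) μ = c n ^ 2 * ∫ x, (x - 1) ^ 2 ∂ν := by
    intro n
    rw [hY, variance_const_mul, variance_of_integral_eq_zero (X := fun z => W (n :: v) z - 1)
      ((hW.1 _).sub measurable_const).aemeasurable (hmean' n),
      integral_comp_W hW n v (fun x => (x - 1) ^ 2) (by fun_prop)]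
  have hsum : variance (∑ n ∈ A, Y n) μ = ∑ n ∈ A, variance (Y n) μ := by
    refine IndepFun.variance_sum (fun n _ => hYm n) fun i _ j _ hij => ?_
    have := hW.2.1.indepFun (i := i :: v) (j := j :: v) (by simpa using hij)
    exact this.comp (φ := fun x => c i * (x - 1)) (ψ := fun x => c j * (x - 1))
      (by fun_prop) (by fun_prop)
  have hS : MemLp (∑ n ∈ A, Y n) 2 μ := memLp_finsetSum' _ fun n _ => hYm n
  have hS0 : μ[∑ n ∈ A, Y n] = 0 := by
    simp only [Finset.sum_apply]
    rw [integral_finsetSum _ fun n _ => (hYm n).integrable (by norm_num)]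
    refine Finset.sum_eq_zero fun n _ => ?_
    simp only [hY]
    rw [integral_const_mul, hmean', mul_zero]
  rw [variance_of_integral_eq_zero hS.aemeasurable hS0] at hsum
  simp_rw [hvar, ← Finset.sum_mul] at hsum
  have h1 := variance_nonneg |∑ n ∈ A, Y n| μ
  rw [variance_eq_sub hS.abs] at h1
  simp only [Pi.pow_apply, Pi.abs_apply, sq_abs] at h1
  rw [hsum] at h1
  rw [← Real.sqrt_mul (integral_nonneg fun x => sq_nonneg _)]
  refine Real.le_sqrt_of_sq_le ?_
  simp only [Finset.sum_apply, hY] at h1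
  linarith

theorem integral_abs_sub_pos [IsProbabilityMeasure ν] (hnc : ∀ c : ℝ, ν ≠ Measure.dirac c)
    (hm2 : Integrable (fun x : ℝ => x ^ 2) ν) : 0 < ∫ x, |x - 1| ∂ν := by
  have h : MemLp id 2 ν := (memLp_two_iff_integrable_sq (by fun_prop)).2 hm2
  have hi : Integrable (fun x : ℝ => |x - 1|) ν :=
    ((h.integrable (by norm_num)).sub (integrable_const 1)).abs
  refine lt_of_le_of_ne (integral_nonneg fun x => abs_nonneg _) fun h0 => hnc 1 ?_
  have h1 := (integral_eq_zero_iff_of_nonneg (fun x => abs_nonneg _) hi).1 h0.symm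
  have h2 : (id : ℝ → ℝ) =ᵐ[ν] fun _ => (1 : ℝ) := by
    filter_upwards [h1] with x hx
    simp only [Pi.zero_apply, abs_eq_zero] at hx
    simp only [id]; linarith
  have : ν.map id = ν.map fun _ => (1 : ℝ) := Measure.map_congr h2
  rw [Measure.map_id, Measure.map_const] at this
  simpa using this

theorem products_hasTrees [IsProbabilityMeasure μ] [IsProbabilityMeasure ν]
    (hW : IsRealization ν μ W) (hpos : ν (Set.Ioi 0) = 1) (hnc : ∀ c : ℝ, ν ≠ Measure.dirac c)
    (hmean : ∫ x, x ∂ν = 1) (hm2 : Integrable (fun x : ℝ => x ^ 2) ν) :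
    HasTrees (productSpan μ W) := by
  have hint := path_integrable hW hpos hmean hm2
  let p : List ℕ → productSpan μ W := fun v => ⟨(hint v).1.toL1 _,
    Submodule.le_topologicalClosure _ (Submodule.subset_span ⟨v, (hint v).1.coeFn_toL1⟩)⟩
  have hp : ∀ v, ((p v : Lp ℝ 1 μ) : Ω → ℝ) =ᵐ[μ] pathProduct W v := fun v => (hint v).1.coeFn_toL1
  have hnorm : ∀ (v : List ℕ) (A : Finset ℕ) (c : ℕ → ℝ), ‖∑ n ∈ A, c n • (p (n :: v) - p v)‖ =
      ∫ z, |∑ n ∈ A, c n * (W (n :: v) z - 1)| ∂μ := by
    intro v A c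
    have e : ‖∑ n ∈ A, c n • (p (n :: v) - p v)‖ =
        ‖∑ n ∈ A, c n • ((p (n :: v) : Lp ℝ 1 μ) - (p v : Lp ℝ 1 μ))‖ := by
      rw [← Submodule.norm_coe]; simp
    rw [e, L1.norm_eq_integral_norm]
    have h1 : ∀ᵐ z ∂μ, ∀ n, (c n • ((p (n :: v) : Lp ℝ 1 μ) - (p v : Lp ℝ 1 μ))) z =
        pathProduct W v z * (c n * (W (n :: v) z - 1)) := by
      rw [ae_all_iff]
      intro n
      filter_upwards [Lp.coeFn_smul (c n) ((p (n :: v) : Lp ℝ 1 μ) - (p v : Lp ℝ 1 μ)),
        Lp.coeFn_sub (p (n :: v) : Lp ℝ 1 μ) (p v), hp (n :: v), hp v] with z h1 h2 h3 h4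
      rw [h1, Pi.smul_apply, h2, Pi.sub_apply, h3, h4]
      simp only [pathProduct, smul_eq_mul]; ring
    have h2 : ∫ z, ‖(∑ n ∈ A, c n • ((p (n :: v) : Lp ℝ 1 μ) - (p v : Lp ℝ 1 μ))) z‖ ∂μ =
        ∫ z, |pathProduct W v z| * |∑ n ∈ A, c n * (W (n :: v) z - 1)| ∂μ := by
      refine integral_congr_ae ?_
      filter_upwards [h1, Lp.coeFn_fun_finsetSum A
        (fun n => c n • ((p (n :: v) : Lp ℝ 1 μ) - (p v : Lp ℝ 1 μ)))] with z h1 h2
      rw [h2, Real.norm_eq_abs, ← abs_mul, Finset.mul_sum]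
      congr 1
      exact Finset.sum_congr rfl fun n _ => h1 n
    have hm : Measurable fun z => ∑ n ∈ A, c n * (W (n :: v) z - 1) :=
      Finset.measurable_fun_sum _ fun n _ => ((hW.1 _).sub measurable_const).const_mul _
    rw [h2, (indep_path_sum hW v A c).integral_fun_comp_mul_comp (f := fun x : ℝ => |x|)
      (g := fun x : ℝ => |x|) (measurable_pathProduct hW v).aemeasurable hm.aemeasurable
      (by fun_prop) (by fun_prop), (hint v).2, one_mul]
  refine ⟨1, _, integral_abs_sub_pos hnc hm2, fun k => ⟨fun _ => Set.range p, ⟨p [], [], rfl⟩,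
    ?_, ?_⟩⟩
  · rintro j - x ⟨v, rfl⟩
    rw [← Submodule.norm_coe, L1.norm_eq_integral_norm, ← (hint v).2]
    refine (integral_congr_ae ?_).le
    filter_upwards [hp v] with z hz
    rw [hz, Real.norm_eq_abs]
  · rintro j - x ⟨v, rfl⟩ S hS η hη
    obtain ⟨n, y, hy, h⟩ := exists_near_of_l2dom (fun n => p (n :: v) - p v) _
      (fun A c => (hnorm v A c).le.trans (integral_abs_sum_le hW hmean hm2 v A c)) hS hη
    refine ⟨p (n :: v), ⟨_, rfl⟩, ?_, y, hy, h⟩
    have := hnorm v {n} fun _ => 1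
    simp only [Finset.sum_singleton, one_smul, one_mul] at this
    rw [this, integral_comp_W hW n v (fun x => |x - 1|) (by fun_prop)]

end Crest.Agent.R125
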